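import Vale.Agent.P097.H740.ZD

/-!
P097, case [c], row CH (helper740): a line through two quasi-convergent vertices with different home
points converges locally uniformly on the whole window.
-/

namespace Vale.Agent.P097.H740

open Filter Metric Set Topology

variable {ι : Type*} {E : Type*} [NormedAddCommGroup E] [NormedSpace ℂ E]

/-- continuous convergence `F i y → f x` as `i → l`, `y → x`, for every `x ∈ U` -/
def CC (l : Filter ι) (F : ι → E → ℂ) (f : E → ℂ) (U : Set E) : Prop :=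
  ∀ x ∈ U, Tendsto (fun q : ι × E => F q.1 q.2) (l ×ˢ 𝓝 x) (𝓝 (f x))

theorem CC.tlu {l : Filter ι} {F : ι → E → ℂ} {f : E → ℂ} {U : Set E} (hU : IsOpen U)
    (hf : ContinuousOn f U) (h : CC l F f U) : TendstoLocallyUniformlyOn F f l U := by
  rw [Metric.tendstoLocallyUniformlyOn_iff]
  intro ε hε x hx
  have h1 := (Metric.tendsto_nhds.1 (h x hx)) (ε / 2) (by positivity)
  rw [Filter.eventually_prod_iff] at h1
  obtain ⟨pa, hpa, pb, hpb, h1⟩ := h1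
  have h2 : ∀ᶠ y in 𝓝 x, dist (f y) (f x) < ε / 2 :=
    Metric.tendsto_nhds.1 (hf.continuousAt (hU.mem_nhds hx)) (ε / 2) (by positivity)
  refine ⟨{y | pb y ∧ dist (f y) (f x) < ε / 2}, mem_nhdsWithin_of_mem_nhds (hpb.and h2), ?_⟩
  filter_upwards [hpa] with i hi y hy
  have h3 := h1 hi hy.1
  have h4 := hy.2
  calc dist (f y) (F i y) ≤ dist (f y) (f x) + dist (f x) (F i y) := dist_triangle _ _ _
    _ < ε := by rw [dist_comm (f x) (F i y)]; linarith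

theorem cc_of_tlu {l : Filter ι} {F : ι → E → ℂ} {f : E → ℂ} {U : Set E} (hU : IsOpen U)
    (hf : ContinuousOn f U) (h : TendstoLocallyUniformlyOn F f l U) : CC l F f U := by
  intro x hx
  rw [Metric.tendsto_nhds]
  intro ε hε
  obtain ⟨t, ht, h1⟩ := (Metric.tendstoLocallyUniformlyOn_iff.1 h) (ε / 2) (by positivity) x hx
  rw [hU.nhdsWithin_eq hx] at ht
  have h2 : ∀ᶠ y in 𝓝 x, dist (f y) (f x) < ε / 2 :=
    Metric.tendsto_nhds.1 (hf.continuousAt (hU.mem_nhds hx)) (ε / 2) (by positivity)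
  rw [Filter.eventually_prod_iff]
  refine ⟨fun i => ∀ y ∈ t, dist (f y) (F i y) < ε / 2, h1,
    fun y => y ∈ t ∧ dist (f y) (f x) < ε / 2, (eventually_mem_set.2 ht).and h2, ?_⟩
  intro i hi y hy
  have h3 := hi y hy.1
  have h4 := hy.2
  calc dist (F i y) (f x) ≤ dist (F i y) (f y) + dist (f y) (f x) := dist_triangle _ _ _
    _ < ε := by rw [dist_comm (F i y) (f y)]; linarith

theorem CC.mul {l : Filter ι} {F G : ι → E → ℂ} {f g : E → ℂ} {U : Set E} (hF : CC l F f U)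
    (hG : CC l G g U) : CC l (fun i z => F i z * G i z) (fun z => f z * g z) U :=
  fun x hx => (hF x hx).mul (hG x hx)

theorem CC.add {l : Filter ι} {F G : ι → E → ℂ} {f g : E → ℂ} {U : Set E} (hF : CC l F f U)
    (hG : CC l G g U) : CC l (fun i z => F i z + G i z) (fun z => f z + g z) U :=
  fun x hx => (hF x hx).add (hG x hx)

theorem CC.sub {l : Filter ι} {F G : ι → E → ℂ} {f g : E → ℂ} {U : Set E} (hF : CC l F f U)
    (hG : CC l G g U) : CC l (fun i z => F i z - G i z) (fun z => f z - g z) U :=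
  fun x hx => (hF x hx).sub (hG x hx)

theorem CC.div {l : Filter ι} {F G : ι → E → ℂ} {f g : E → ℂ} {U : Set E} (hF : CC l F f U)
    (hG : CC l G g U) (hg : ∀ z ∈ U, g z ≠ 0) :
    CC l (fun i z => F i z / G i z) (fun z => f z / g z) U :=
  fun x hx => (hF x hx).div (hG x hx) (hg x hx)

theorem CC.const (l : Filter ι) (c : ℂ) (U : Set E) : CC l (fun _ _ => c) (fun _ => c) U :=
  fun _ _ => tendsto_const_nhds

theorem CC.congr_lim {l : Filter ι} {F : ι → E → ℂ} {f g : E → ℂ} {U : Set E} (hF : CC l F f U)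
    (h : ∀ z ∈ U, f z = g z) : CC l F g U := by
  intro x hx
  rw [← h x hx]
  exact hF x hx

/-- local eventual equality -/
theorem CC.congr_fam {l : Filter ι} {F G : ι → E → ℂ} {f : E → ℂ} {U : Set E} (hF : CC l F f U)
    (h : ∀ x ∈ U, ∃ r > 0, ∀ᶠ j in l, ∀ y ∈ ball x r, F j y = G j y) : CC l G f U := by
  intro x hx
  refine (hF x hx).congr' ?_
  obtain ⟨r, hr, h1⟩ := h x hx
  rw [EventuallyEq, Filter.eventually_prod_iff]
  exact ⟨_, h1, fun y => y ∈ ball x r, ball_mem_nhds x hr, fun hi y hy => hi y hy⟩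

theorem HolLoc.mul {l : Filter ι} {F G : ι → E → ℂ} {U : Set E} (hF : HolLoc l F U)
    (hG : HolLoc l G U) : HolLoc l (fun i z => F i z * G i z) U := by
  intro x hx
  obtain ⟨r, hr, h1⟩ := hF x hx
  obtain ⟨s, hs, h2⟩ := hG x hx
  refine ⟨min r s, lt_min hr hs, ?_⟩
  filter_upwards [h1, h2] with j h3 h4
  exact (h3.mono (ball_subset_ball (min_le_left _ _))).mul
    (h4.mono (ball_subset_ball (min_le_right _ _)))

theorem HolLoc.sub {l : Filter ι} {F G : ι → E → ℂ} {U : Set E} (hF : HolLoc l F U)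
    (hG : HolLoc l G U) : HolLoc l (fun i z => F i z - G i z) U := by
  intro x hx
  obtain ⟨r, hr, h1⟩ := hF x hx
  obtain ⟨s, hs, h2⟩ := hG x hx
  refine ⟨min r s, lt_min hr hs, ?_⟩
  filter_upwards [h1, h2] with j h3 h4
  exact (h3.mono (ball_subset_ball (min_le_left _ _))).sub
    (h4.mono (ball_subset_ball (min_le_right _ _)))

theorem HolLoc.constc (l : Filter ι) (c : ι → ℂ) (U : Set E) : HolLoc l (fun i _ => c i) U :=
  fun _ _ => ⟨1, one_pos, Eventually.of_forall fun _ => differentiableOn_const _⟩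

/-- **Row ZD** in terms of `CC` -/
theorem zdc [ProperSpace E] {l : Filter ι} {U : Set E} (hU : IsOpen U) (hUc : IsPreconnected U)
    {F G : ι → E → ℂ} {G₀ : E → ℂ} (hF : HolLoc l F U) (hG₀ : DifferentiableOn ℂ G₀ U)
    (hG : CC l G G₀ U) {z₀ : E} (hz₀ : z₀ ∈ U) (hne : G₀ z₀ ≠ 0)
    (hFG : CC l (fun i z => F i z * G i z) (fun _ => 0) U) : CC l F (fun _ => 0) U :=
  cc_of_tlu hU continuousOn_const (zd hU hUc hF hG₀ (hG.tlu hU hG₀.continuousOn) hz₀ hne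
    (hFG.tlu hU continuousOn_const))

/-- product of two non zero holomorphic functions is non zero somewhere -/
theorem prod_ne {U : Set E} (hU : IsOpen U) (hUc : IsPreconnected U) {G₁ G₂ : E → ℂ}
    (h₁ : DifferentiableOn ℂ G₁ U) (h₂ : DifferentiableOn ℂ G₂ U) {z₁ z₂ : E} (hz₁ : z₁ ∈ U)
    (hz₂ : z₂ ∈ U) (hn₁ : G₁ z₁ ≠ 0) (hn₂ : G₂ z₂ ≠ 0) : ∃ w ∈ U, G₁ w * G₂ w ≠ 0 := by
  by_contra hcon
  push Not at hcon
  have h3 : ∀ᶠ y in 𝓝 z₁, y ∈ U ∧ G₁ y ≠ 0 :=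
    (hU.eventually_mem hz₁).and ((h₁.continuousOn.continuousAt (hU.mem_nhds hz₁)).eventually_ne hn₁)
  have h4 : G₂ =ᶠ[𝓝 z₁] 0 := by
    filter_upwards [h3] with y hy
    have := hcon y hy.1
    rcases mul_eq_zero.1 this with h | h
    · exact absurd h hy.2
    · exact h
  exact hn₂ (eqOn_zero hU hUc h₂ hz₁ h4 z₂ hz₂)

/-- a quasi-convergent vertex on the window `U`, with home point `(Pp, Pm)` in null coordinates:
`g, Yp, Ym` are the functions `g`, `g ζ₊`, `g ζ₋` at the vertex, `c` a normalization -/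
structure QV (l : Filter ι) (U : Set E) (c : ι → ℂ) (g Yp Ym : ι → E → ℂ) (G : E → ℂ)
    (Pp Pm : ℂ) : Prop where
  hg : HolLoc l g U
  hYp : HolLoc l Yp U
  hYm : HolLoc l Ym U
  dG : DifferentiableOn ℂ G U
  lim : CC l (fun i z => c i * g i z) G U
  limp : CC l (fun i z => c i * Yp i z) (fun z => Pp * G z) U
  limm : CC l (fun i z => c i * Ym i z) (fun z => Pm * G z) U
  ne : ∃ z ∈ U, G z ≠ 0

/-- incidence of the line `(a, p)` (`a = e^{iα}`) with the vertex, locally and eventually -/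
def Inc (l : Filter ι) (U : Set E) (a p g Yp Ym : ι → E → ℂ) : Prop :=
  ∀ x ∈ U, ∃ r > 0, ∀ᶠ j in l, ∀ y ∈ ball x r,
    Yp j y - a j y ^ 2 * Ym j y = 2 * Complex.I * p j y * a j y * g j y

/-- **Row CH, directions** -/
theorem ch_sq [ProperSpace E] {l : Filter ι} {U : Set E} (hU : IsOpen U) (hUc : IsPreconnected U)
    {a p : ι → E → ℂ} (ha : HolLoc l a U)
    {c₁ c₂ : ι → ℂ} {g₁ Yp₁ Ym₁ g₂ Yp₂ Ym₂ : ι → E → ℂ} {G₁ G₂ : E → ℂ} {Pp₁ Pm₁ Pp₂ Pm₂ : ℂ}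
    (h₁ : QV l U c₁ g₁ Yp₁ Ym₁ G₁ Pp₁ Pm₁) (h₂ : QV l U c₂ g₂ Yp₂ Ym₂ G₂ Pp₂ Pm₂)
    (i₁ : Inc l U a p g₁ Yp₁ Ym₁) (i₂ : Inc l U a p g₂ Yp₂ Ym₂) (hm : Pm₁ ≠ Pm₂) :
    CC l (fun i z => a i z ^ 2) (fun _ => (Pp₁ - Pp₂) / (Pm₁ - Pm₂)) U := by
  set κ := (Pp₁ - Pp₂) / (Pm₁ - Pm₂) with hκ
  have hm' : Pm₁ - Pm₂ ≠ 0 := sub_ne_zero.2 hm
  obtain ⟨w₁, hw₁, hn₁⟩ := h₁.ne
  obtain ⟨w₂, hw₂, hn₂⟩ := h₂.ne
  obtain ⟨w, hw, hn⟩ := prod_ne hU hUc h₁.dG h₂.dG hw₁ hw₂ hn₁ hn₂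
  -- A_i → (Pm₁ - Pm₂) G₁ G₂, B_i → (Pp₁ - Pp₂) G₁ G₂
  have hA : CC l (fun i z => (c₁ i * Ym₁ i z) * (c₂ i * g₂ i z) - (c₂ i * Ym₂ i z) *
      (c₁ i * g₁ i z)) (fun z => (Pm₁ - Pm₂) * (G₁ z * G₂ z)) U :=
    ((h₁.limm.mul h₂.lim).sub (h₂.limm.mul h₁.lim)).congr_lim (fun z _ => by ring)
  have hB : CC l (fun i z => (c₁ i * Yp₁ i z) * (c₂ i * g₂ i z) - (c₂ i * Yp₂ i z) *
      (c₁ i * g₁ i z)) (fun z => (Pp₁ - Pp₂) * (G₁ z * G₂ z)) U :=
    ((h₁.limp.mul h₂.lim).sub (h₂.limp.mul h₁.lim)).congr_lim (fun z _ => by ring)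
  have hlin : CC l (fun i z => ((c₁ i * Yp₁ i z) * (c₂ i * g₂ i z) - (c₂ i * Yp₂ i z) *
      (c₁ i * g₁ i z)) - κ * ((c₁ i * Ym₁ i z) * (c₂ i * g₂ i z) - (c₂ i * Ym₂ i z) *
      (c₁ i * g₁ i z))) (fun _ => 0) U :=
    (hB.sub ((CC.const l κ U).mul hA)).congr_lim (fun z _ => by
      rw [hκ]; field_simp; ring)
  have hF : HolLoc l (fun i z => a i z * a i z - κ) U := (ha.mul ha).sub (HolLoc.constc l _ U)
  have hprod : CC l (fun i z => (a i z * a i z - κ) * ((c₁ i * Ym₁ i z) * (c₂ i * g₂ i z) -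
      (c₂ i * Ym₂ i z) * (c₁ i * g₁ i z))) (fun _ => 0) U := by
    refine hlin.congr_fam ?_
    intro x hx
    obtain ⟨r, hr, e1⟩ := i₁ x hx
    obtain ⟨s, hs, e2⟩ := i₂ x hx
    refine ⟨min r s, lt_min hr hs, ?_⟩
    filter_upwards [e1, e2] with j e1 e2 y hy
    have f1 := e1 y (ball_subset_ball (min_le_left _ _) hy)
    have f2 := e2 y (ball_subset_ball (min_le_right _ _) hy)
    linear_combination (c₁ j * c₂ j * g₂ j y) * f1 - (c₁ j * c₂ j * g₁ j y) * f2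
  have hz := zdc hU hUc hF (((h₁.dG.mul h₂.dG).const_mul (Pm₁ - Pm₂))) hA hw
    (mul_ne_zero hm' hn) hprod
  have := hz.add (CC.const l κ U)
  refine (this.congr_lim (g := fun _ => κ) (fun z _ => by simp)).congr_fam ?_
  intro x hx
  exact ⟨1, one_pos, Eventually.of_forall fun j y _ => by ring⟩

/-- **Row SG**: sign of the square root -/
theorem sg {l : Filter ι} {U : Set E} (hU : IsOpen U) (hUc : IsPreconnected U)
    {a : ι → E → ℂ} (ha : HolLoc l a U) {as : ℂ} (has : as ≠ 0)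
    (hsq : CC l (fun i z => a i z ^ 2) (fun _ => as ^ 2) U) {z₀ : E} (hz₀ : z₀ ∈ U)
    (h0 : Tendsto (fun i => a i z₀) l (𝓝 as)) : CC l a (fun _ => as) U := by
  have hn : 0 < ‖as‖ := norm_pos_iff.2 has
  set A : Set E := {x | ∃ r > 0, ∀ᶠ i in l, ∀ y ∈ ball x r, ‖a i y - as‖ < ‖as‖} with hA
  -- local dichotomy
  have hloc : ∀ x ∈ U, ∃ r > 0, ∀ᶠ i in l, ContinuousOn (a i) (ball x r) ∧
      ∀ y ∈ ball x r, ‖a i y - as‖ ≠ ‖as‖ := by
    intro x hx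
    obtain ⟨r, hr, h1⟩ := ha x hx
    have h2 := (Metric.tendsto_nhds.1 (hsq x hx)) (‖as‖ ^ 2) (by positivity)
    rw [Filter.eventually_prod_iff] at h2
    obtain ⟨pa, hpa, pb, hpb, h2⟩ := h2
    obtain ⟨s, hs, hpb⟩ := Metric.eventually_nhds_iff_ball.1 hpb
    refine ⟨min r s, lt_min hr hs, ?_⟩
    filter_upwards [h1, hpa] with i h3 h4
    refine ⟨(h3.mono (ball_subset_ball (min_le_left _ _))).continuousOn, ?_⟩
    intro y hy heq
    have h5 := h2 h4 (hpb y (ball_subset_ball (min_le_right _ _) hy))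
    rw [dist_eq_norm] at h5
    simp only at h5
    have h6 : a i y ^ 2 - as ^ 2 = (a i y - as) * (a i y + as) := by ring
    rw [h6, norm_mul, heq] at h5
    have h7 : ‖as‖ ≤ ‖a i y + as‖ := by
      have h8 : (2 : ℂ) * as = (a i y + as) - (a i y - as) := by ring
      have h9 : ‖(2 : ℂ) * as‖ ≤ ‖a i y + as‖ + ‖a i y - as‖ := by
        rw [h8]; exact norm_sub_le _ _
      rw [norm_mul, heq] at h9
      norm_num at h9
      linarith
    nlinarith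
  have hAo : IsOpen A := by
    rw [Metric.isOpen_iff]
    rintro x ⟨r, hr, h1⟩
    refine ⟨r / 2, by positivity, ?_⟩
    intro x' hx'
    refine ⟨r / 2, by positivity, ?_⟩
    filter_upwards [h1] with i h2 y hy
    refine h2 y ?_
    rw [mem_ball] at *
    have := dist_triangle y x' x
    linarith
  -- spreading over a ball
  have hspread : ∀ x : E, ∀ r : ℝ, ∀ i, ContinuousOn (a i) (ball x r) →
      (∀ y ∈ ball x r, ‖a i y - as‖ ≠ ‖as‖) → ∀ x' ∈ ball x r, ‖a i x' - as‖ < ‖as‖ →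
      ∀ y ∈ ball x r, ‖a i y - as‖ < ‖as‖ := by
    intro x r i hc hne x' hx' hlt y hy
    by_contra hcon
    push Not at hcon
    have hcc : ContinuousOn (fun y => ‖a i y - as‖) (ball x r) :=
      (hc.sub continuousOn_const).norm
    have hpre : IsPreconnected (ball x r) := by
      let _ : NormedSpace ℝ E := NormedSpace.restrictScalars ℝ ℂ E
      exact (convex_ball x r).isPreconnected
    obtain ⟨w, hw, hw2⟩ := hpre.intermediate_value hx' hy hcc ⟨hlt.le, hcon⟩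
    exact hne w hw hw2
  have h0A : z₀ ∈ A := by
    obtain ⟨r, hr, h1⟩ := hloc z₀ hz₀
    refine ⟨r, hr, ?_⟩
    filter_upwards [h1, (Metric.tendsto_nhds.1 h0) ‖as‖ hn] with i h2 h3 y hy
    rw [dist_eq_norm] at h3
    exact hspread z₀ r i h2.1 h2.2 z₀ (mem_ball_self hr) h3 y hy
  have hsub : U ⊆ A := by
    refine hUc.subset_of_closure_inter_subset hAo ⟨z₀, hz₀, h0A⟩ ?_
    rintro x ⟨hx1, hx2⟩
    obtain ⟨r, hr, h1⟩ := hloc x hx2
    obtain ⟨x', hx'A, hx'⟩ := Metric.mem_closure_iff.1 hx1 r hr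
    obtain ⟨s, hs, h2⟩ := hx'A
    refine ⟨r, hr, ?_⟩
    filter_upwards [h1, h2] with i h3 h4
    exact hspread x r i h3.1 h3.2 x' (by rw [mem_ball, dist_comm]; exact hx')
      (h4 x' (mem_ball_self hs))
  intro x hx
  obtain ⟨r, hr, h1⟩ := hsub hx
  -- a - as = (a² - as²)/(a + as)
  rw [tendsto_iff_norm_sub_tendsto_zero]
  have h2 := tendsto_iff_norm_sub_tendsto_zero.1 (hsq x hx)
  have h3 : Tendsto (fun q : ι × E => ‖a q.1 q.2 ^ 2 - as ^ 2‖ / ‖as‖) (l ×ˢ 𝓝 x) (𝓝 0) := by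
    have := h2.div_const ‖as‖
    simpa using this
  refine squeeze_zero' (Eventually.of_forall fun _ => norm_nonneg _) ?_ h3
  rw [Filter.eventually_prod_iff]
  refine ⟨_, h1, fun y => y ∈ ball x r, ball_mem_nhds x hr, ?_⟩
  intro i hi y hy
  have h4 := hi y hy
  have h6 : a i y ^ 2 - as ^ 2 = (a i y - as) * (a i y + as) := by ring
  rw [le_div_iff₀ hn, h6, norm_mul]
  have h7 : ‖as‖ ≤ ‖a i y + as‖ := by
    have h8 : (2 : ℂ) * as = (a i y + as) - (a i y - as) := by ring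
    have h9 : ‖(2 : ℂ) * as‖ ≤ ‖a i y + as‖ + ‖a i y - as‖ := by
      rw [h8]; exact norm_sub_le _ _
    rw [norm_mul] at h9
    norm_num at h9
    linarith
  exact mul_le_mul_of_nonneg_left h7 (norm_nonneg _)

/-- **Row CH**: the line converges on the whole window. -/
theorem ch [ProperSpace E] {l : Filter ι} {U : Set E} (hU : IsOpen U) (hUc : IsPreconnected U)
    {a p : ι → E → ℂ} (ha : HolLoc l a U) (hp : HolLoc l p U)
    {c₁ c₂ : ι → ℂ} {g₁ Yp₁ Ym₁ g₂ Yp₂ Ym₂ : ι → E → ℂ} {G₁ G₂ : E → ℂ} {Pp₁ Pm₁ Pp₂ Pm₂ : ℂ}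
    (h₁ : QV l U c₁ g₁ Yp₁ Ym₁ G₁ Pp₁ Pm₁) (h₂ : QV l U c₂ g₂ Yp₂ Ym₂ G₂ Pp₂ Pm₂)
    (i₁ : Inc l U a p g₁ Yp₁ Ym₁) (i₂ : Inc l U a p g₂ Yp₂ Ym₂) (hm : Pm₁ ≠ Pm₂)
    {as : ℂ} (has : as ≠ 0) (hsq : as ^ 2 * (Pm₁ - Pm₂) = Pp₁ - Pp₂)
    {z₀ : E} (hz₀ : z₀ ∈ U) (h0 : Tendsto (fun i => a i z₀) l (𝓝 as)) :
    CC l a (fun _ => as) U ∧
      CC l p (fun _ => (Pp₁ - as ^ 2 * Pm₁) / (2 * Complex.I * as)) U := by
  have hm' : Pm₁ - Pm₂ ≠ 0 := sub_ne_zero.2 hm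
  have hκ : (Pp₁ - Pp₂) / (Pm₁ - Pm₂) = as ^ 2 := by
    rw [← hsq]; field_simp
  have h1 := ch_sq hU hUc ha h₁ h₂ i₁ i₂ hm
  rw [hκ] at h1
  have hA := sg hU hUc ha has h1 hz₀ h0
  refine ⟨hA, ?_⟩
  obtain ⟨w, hw, hn⟩ := h₁.ne
  set m := Pp₁ - as ^ 2 * Pm₁ with hmdef
  have hF : HolLoc l (fun i z => (2 * Complex.I) * (p i z * a i z) - m) U :=
    ((HolLoc.constc l _ U).mul (hp.mul ha)).sub (HolLoc.constc l _ U)
  have hlin : CC l (fun i z => (c₁ i * Yp₁ i z) - a i z ^ 2 * (c₁ i * Ym₁ i z) -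
      m * (c₁ i * g₁ i z)) (fun _ => 0) U :=
    ((h₁.limp.sub (h1.mul h₁.limm)).sub ((CC.const l m U).mul h₁.lim)).congr_lim
      (fun z _ => by rw [hmdef]; ring)
  have hprod : CC l (fun i z => ((2 * Complex.I) * (p i z * a i z) - m) * (c₁ i * g₁ i z))
      (fun _ => 0) U := by
    refine hlin.congr_fam ?_
    intro x hx
    obtain ⟨r, hr, e1⟩ := i₁ x hx
    refine ⟨r, hr, ?_⟩
    filter_upwards [e1] with j e1 y hy
    have f1 := e1 y hy
    linear_combination (c₁ j) * f1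
  have hz := zdc hU hUc hF h₁.dG h₁.lim hw hn hprod
  have hz2 := (hz.add (CC.const l m U)).div
    ((CC.const l (2 * Complex.I) U).mul hA) (fun z _ => by
      simp [has])
  refine (hz2.congr_lim (g := fun _ => m / (2 * Complex.I * as)) (fun z _ => by simp)).congr_fam ?_
  -- `a` is non zero eventually near every point
  intro x hx
  have h3 := (hA x hx).eventually_ne has
  rw [Filter.eventually_prod_iff] at h3
  obtain ⟨pa, hpa, pb, hpb, h3⟩ := h3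
  obtain ⟨s, hs, hpb⟩ := Metric.eventually_nhds_iff_ball.1 hpb
  refine ⟨s, hs, ?_⟩
  filter_upwards [hpa] with j hj y hy
  have h4 : a j y ≠ 0 := h3 hj (hpb y hy)
  have h5 : (2 : ℂ) * Complex.I ≠ 0 := by simp
  field_simp
  ring

end Vale.Agent.P097.H740
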