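import Mathlib

/-!
P097, case [c], row QL (helper740): quasi-limits at a boundary point, bubble free form.

`v = (g, d g')`, `V = (Y, d Y')`; `P(z)` is the orthogonal projection coefficient of `V` on `v`.
-/

namespace Vale.Agent.P097.H740

open Complex Set Filter Topology

/-- depth below the top line `Im = H` -/
def dp (H : ℝ) (z : ℂ) : ℝ := H - z.im

/-- truncated cone at the boundary point `b + i H` -/
def Cone (H b A δ : ℝ) : Set ℂ := {z | |z.re - b| ≤ A * dp H z ∧ 0 < dp H z ∧ dp H z < δ}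

theorem cone_mono {H b A A' δ δ' : ℝ} (hA : A ≤ A') (hδ : δ ≤ δ') :
    Cone H b A δ ⊆ Cone H b A' δ' := by
  intro z hz
  refine ⟨hz.1.trans (mul_le_mul_of_nonneg_right hA hz.2.1.le), hz.2.1, hz.2.2.trans_le hδ⟩

theorem dp_affine (H : ℝ) (z v : ℂ) (t : ℝ) : dp H (z + t • v) = dp H z - t * v.im := by
  simp [dp]; ring

/-- Gronwall for a second order linear equation along a segment -/
theorem seg_growth {D D1 f Q : ℂ → ℂ} {z v : ℂ} {K F : ℝ} (hK : 0 < K) (hF : 0 ≤ F)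
    (hD : ∀ t ∈ Icc (0 : ℝ) 1, HasDerivAt D (D1 (z + t • v)) (z + t • v))
    (hD1 : ∀ t ∈ Icc (0 : ℝ) 1, HasDerivAt D1 (Q (z + t • v) * D (z + t • v) + f (z + t • v))
      (z + t • v))
    (hQ : ∀ t ∈ Icc (0 : ℝ) 1, ‖Q (z + t • v)‖ ≤ K ^ 2)
    (hf : ∀ t ∈ Icc (0 : ℝ) 1, ‖f (z + t • v)‖ ≤ F) :
    K * ‖D (z + v)‖ ≤ Real.exp (K * ‖v‖) * (K * ‖D z‖ + ‖D1 z‖ + F * ‖v‖) ∧
    ‖D1 (z + v)‖ ≤ Real.exp (K * ‖v‖) * (K * ‖D z‖ + ‖D1 z‖ + F * ‖v‖) := by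
  set U : ℝ → ℂ × ℂ := fun t => ((K : ℂ) * D (z + t • v), D1 (z + t • v)) with hU
  set U' : ℝ → ℂ × ℂ := fun t => ((K : ℂ) * (D1 (z + t • v) * v),
    (Q (z + t • v) * D (z + t • v) + f (z + t • v)) * v) with hU'
  have hpath : ∀ t : ℝ, HasDerivAt (fun s : ℝ => z + s • v) v t := by
    intro t
    have h1 : HasDerivAt (fun s : ℝ => s • v) ((1 : ℝ) • v) t := (hasDerivAt_id t).smul_const v
    simpa using h1.const_add z
  have hder : ∀ t ∈ Icc (0 : ℝ) 1, HasDerivAt U (U' t) t := by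
    intro t ht
    have h1 : HasDerivAt (fun s : ℝ => D (z + s • v)) (D1 (z + t • v) * v) t :=
      (hD t ht).comp_of_eq t (hpath t) rfl |>.congr_deriv (by ring)
    have h2 : HasDerivAt (fun s : ℝ => D1 (z + s • v))
        ((Q (z + t • v) * D (z + t • v) + f (z + t • v)) * v) t :=
      (hD1 t ht).comp_of_eq t (hpath t) rfl |>.congr_deriv (by ring)
    exact (h1.const_mul (K : ℂ)).prodMk h2
  have hb : ∀ t ∈ Ico (0 : ℝ) 1, ‖U' t‖ ≤ (K * ‖v‖) * ‖U t‖ + F * ‖v‖ := by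
    intro t ht
    have ht' : t ∈ Icc (0 : ℝ) 1 := ⟨ht.1, ht.2.le⟩
    have hnK : ‖(K : ℂ)‖ = K := by simp [abs_of_pos hK]
    have hU1 : K * ‖D (z + t • v)‖ ≤ ‖U t‖ := by
      have h : ‖(K : ℂ) * D (z + t • v)‖ ≤ ‖U t‖ := norm_fst_le (U t)
      rwa [norm_mul, hnK] at h
    have hU2 : ‖D1 (z + t • v)‖ ≤ ‖U t‖ := norm_snd_le (U t)
    have hv := norm_nonneg v
    rw [Prod.norm_def]
    refine max_le ?_ ?_
    · simp only [hU', norm_mul, hnK]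
      have : K * (‖D1 (z + t • v)‖ * ‖v‖) ≤ K * ‖v‖ * ‖U t‖ := by
        calc K * (‖D1 (z + t • v)‖ * ‖v‖) = (K * ‖v‖) * ‖D1 (z + t • v)‖ := by ring
          _ ≤ (K * ‖v‖) * ‖U t‖ := mul_le_mul_of_nonneg_left hU2 (by positivity)
      nlinarith [mul_nonneg hF hv]
    · simp only [hU', norm_mul]
      have h3 : ‖Q (z + t • v) * D (z + t • v) + f (z + t • v)‖ ≤ K * ‖U t‖ + F := by
        calc ‖Q (z + t • v) * D (z + t • v) + f (z + t • v)‖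
            ≤ ‖Q (z + t • v)‖ * ‖D (z + t • v)‖ + ‖f (z + t • v)‖ := by
              refine (norm_add_le _ _).trans ?_
              rw [norm_mul]
          _ ≤ K ^ 2 * ‖D (z + t • v)‖ + F := by
              gcongr
              · exact hQ t ht'
              · exact hf t ht'
          _ = K * (K * ‖D (z + t • v)‖) + F := by ring
          _ ≤ K * ‖U t‖ + F := by gcongr
      calc ‖Q (z + t • v) * D (z + t • v) + f (z + t • v)‖ * ‖v‖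
          ≤ (K * ‖U t‖ + F) * ‖v‖ := mul_le_mul_of_nonneg_right h3 hv
        _ = K * ‖v‖ * ‖U t‖ + F * ‖v‖ := by ring
  have hcont : ContinuousOn U (Icc 0 1) := fun t ht => (hder t ht).continuousAt.continuousWithinAt
  have hg := norm_le_gronwallBound_of_norm_deriv_right_le (f := U) (f' := U')
    (δ := ‖U 0‖) (K := K * ‖v‖) (ε := F * ‖v‖) (a := 0) (b := 1) hcont
    (fun t ht => (hder t ⟨ht.1, ht.2.le⟩).hasDerivWithinAt) le_rfl hb 1 ⟨zero_le_one, le_rfl⟩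
  have hU0 : ‖U 0‖ ≤ K * ‖D z‖ + ‖D1 z‖ := by
    rw [Prod.norm_def]
    have hnK : ‖(K : ℂ)‖ = K := by simp [abs_of_pos hK]
    refine max_le ?_ ?_
    · simp only [hU, zero_smul, add_zero, norm_mul, hnK]
      linarith [norm_nonneg (D1 z)]
    · simp only [hU, zero_smul, add_zero]
      have := mul_nonneg hK.le (norm_nonneg (D z))
      linarith
  have hgb : gronwallBound ‖U 0‖ (K * ‖v‖) (F * ‖v‖) (1 - 0) ≤
      Real.exp (K * ‖v‖) * (K * ‖D z‖ + ‖D1 z‖ + F * ‖v‖) := by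
    by_cases hv0 : v = 0
    · subst hv0
      simp only [norm_zero, mul_zero, gronwallBound_K0, Real.exp_zero, add_zero, one_mul, zero_mul]
      linarith
    · have hv : 0 < ‖v‖ := norm_pos_iff.mpr hv0
      have hKv : K * ‖v‖ ≠ 0 := (mul_pos hK hv).ne'
      rw [gronwallBound_of_K_ne_0 hKv]
      have h1 : K * ‖v‖ * (1 - 0) = K * ‖v‖ := by ring
      beta_reduce
      rw [h1]
      have h2 : F * ‖v‖ / (K * ‖v‖) * (Real.exp (K * ‖v‖) - 1) ≤ Real.exp (K * ‖v‖) * (F * ‖v‖) := by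
        have h3 : Real.exp (K * ‖v‖) - 1 ≤ (K * ‖v‖) * Real.exp (K * ‖v‖) := by
          have h4 := Real.add_one_le_exp (-(K * ‖v‖))
          have h5 : Real.exp (K * ‖v‖) * Real.exp (-(K * ‖v‖)) = 1 := by
            rw [← Real.exp_add]; simp
          nlinarith [Real.exp_pos (K * ‖v‖)]
        calc F * ‖v‖ / (K * ‖v‖) * (Real.exp (K * ‖v‖) - 1)
            ≤ F * ‖v‖ / (K * ‖v‖) * ((K * ‖v‖) * Real.exp (K * ‖v‖)) :=
              mul_le_mul_of_nonneg_left h3 (by positivity)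
          _ = Real.exp (K * ‖v‖) * (F * ‖v‖) := by
              field_simp
      have h6 : ‖U 0‖ * Real.exp (K * ‖v‖) ≤ Real.exp (K * ‖v‖) * (K * ‖D z‖ + ‖D1 z‖) := by
        rw [mul_comm]
        exact mul_le_mul_of_nonneg_left hU0 (Real.exp_pos _).le
      calc ‖U 0‖ * Real.exp (K * ‖v‖) + F * ‖v‖ / (K * ‖v‖) * (Real.exp (K * ‖v‖) - 1)
          ≤ Real.exp (K * ‖v‖) * (K * ‖D z‖ + ‖D1 z‖) + Real.exp (K * ‖v‖) * (F * ‖v‖) :=
            add_le_add h6 h2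
        _ = _ := by ring
  have hfin := hg.trans hgb
  have hnK : ‖(K : ℂ)‖ = K := by simp [abs_of_pos hK]
  constructor
  · have h : ‖(K : ℂ) * D (z + (1 : ℝ) • v)‖ ≤ _ := (norm_fst_le (U 1)).trans hfin
    rwa [norm_mul, hnK, one_smul] at h
  · have h : ‖D1 (z + (1 : ℝ) • v)‖ ≤ _ := (norm_snd_le (U 1)).trans hfin
    rwa [one_smul] at h

/-- `|g|^2 + d^2 |g'|^2` -/
noncomputable def Nn (H : ℝ) (g g1 : ℂ → ℂ) (z : ℂ) : ℝ := ‖g z‖ ^ 2 + dp H z ^ 2 * ‖g1 z‖ ^ 2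

/-- `|g| + d |g'|` -/
noncomputable def Gn (H : ℝ) (g g1 : ℂ → ℂ) (z : ℂ) : ℝ := ‖g z‖ + dp H z * ‖g1 z‖

/-- projection coefficient -/
noncomputable def Pc (H : ℝ) (g g1 Y Y1 : ℂ → ℂ) (z : ℂ) : ℂ :=
  (Y z * (starRingEnd ℂ) (g z) + (dp H z : ℂ) ^ 2 * (Y1 z * (starRingEnd ℂ) (g1 z))) /
    (Nn H g g1 z : ℂ)

theorem Nn_cast (H : ℝ) (g g1 : ℂ → ℂ) (z : ℂ) : (Nn H g g1 z : ℂ) =
    g z * (starRingEnd ℂ) (g z) + (dp H z : ℂ) ^ 2 * (g1 z * (starRingEnd ℂ) (g1 z)) := by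
  rw [Complex.mul_conj, Complex.mul_conj, Complex.normSq_eq_norm_sq, Complex.normSq_eq_norm_sq]
  simp [Nn]

theorem proj_fst {H : ℝ} {g g1 Y Y1 E : ℂ → ℂ} {z : ℂ} (hN : 0 < Nn H g g1 z)
    (hW : Y1 z * g z - Y z * g1 z = E z) :
    Y z - Pc H g g1 Y Y1 z * g z =
      -((dp H z : ℂ) ^ 2 * (starRingEnd ℂ) (g1 z) * E z) / (Nn H g g1 z : ℂ) := by
  have hN' : (Nn H g g1 z : ℂ) ≠ 0 := by exact_mod_cast hN.ne'
  rw [Pc, eq_div_iff hN', sub_mul, div_mul_eq_mul_div, div_mul_cancel₀ _ hN', Nn_cast, ← hW]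
  ring

theorem proj_snd {H : ℝ} {g g1 Y Y1 E : ℂ → ℂ} {z : ℂ} (hN : 0 < Nn H g g1 z)
    (hW : Y1 z * g z - Y z * g1 z = E z) :
    Y1 z - Pc H g g1 Y Y1 z * g1 z =
      ((starRingEnd ℂ) (g z) * E z) / (Nn H g g1 z : ℂ) := by
  have hN' : (Nn H g g1 z : ℂ) ≠ 0 := by exact_mod_cast hN.ne'
  rw [Pc, eq_div_iff hN', sub_mul, div_mul_eq_mul_div, div_mul_cancel₀ _ hN', Nn_cast, ← hW]
  ring

theorem proj_bound {H : ℝ} {g g1 Y Y1 E : ℂ → ℂ} {z : ℂ} (hN : 0 < Nn H g g1 z)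
    (hd : 0 < dp H z) (hW : Y1 z * g z - Y z * g1 z = E z) :
    ‖Y z - Pc H g g1 Y Y1 z * g z‖ + dp H z * ‖Y1 z - Pc H g g1 Y Y1 z * g1 z‖ =
      dp H z * ‖E z‖ * Gn H g g1 z / Nn H g g1 z := by
  rw [proj_fst hN hW, proj_snd hN hW, norm_div, norm_div, norm_neg, norm_mul, norm_mul, norm_mul,
    RCLike.norm_conj, RCLike.norm_conj, norm_pow, Complex.norm_real, Complex.norm_real,
    Real.norm_of_nonneg hN.le, Real.norm_of_nonneg hd.le, Gn]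
  field_simp
  ring

theorem Nn_le_Gn {H : ℝ} {g g1 : ℂ → ℂ} {z : ℂ} (hd : 0 < dp H z) :
    Nn H g g1 z ≤ Gn H g g1 z ^ 2 := by
  have h1 := mul_nonneg (norm_nonneg (g z)) (mul_nonneg hd.le (norm_nonneg (g1 z)))
  unfold Nn Gn
  nlinarith

theorem Gn_le_Nn {H : ℝ} {g g1 : ℂ → ℂ} {z : ℂ} :
    Gn H g g1 z ^ 2 ≤ 2 * Nn H g g1 z := by
  unfold Nn Gn
  nlinarith [sq_nonneg (‖g z‖ - dp H z * ‖g1 z‖)]

theorem Gn_nonneg {H : ℝ} {g g1 : ℂ → ℂ} {z : ℂ} (hd : 0 < dp H z) : 0 ≤ Gn H g g1 z := by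
  unfold Gn; positivity

/-- pointwise hypotheses at one point, exponent parameter `η` -/
structure Pt (H : ℝ) (g g1 Y Y1 Q f E : ℂ → ℂ) (η : ℝ) (z : ℂ) : Prop where
  dg : HasDerivAt g (g1 z) z
  dg1 : HasDerivAt g1 (Q z * g z) z
  dY : HasDerivAt Y (Y1 z) z
  dY1 : HasDerivAt Y1 (Q z * Y z + f z) z
  W : Y1 z * g z - Y z * g1 z = E z
  bQ : ‖Q z‖ * dp H z ^ 2 ≤ (η * Real.log (1 / dp H z)) ^ 2
  bE : ‖E z‖ ≤ dp H z ^ (-η)
  bf : ‖f z‖ ≤ dp H z ^ (-η)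
  bN : dp H z ^ η ≤ ‖g z‖ ^ 2 + dp H z ^ 2 * ‖g1 z‖ ^ 2

theorem exp_log_rpow {d η : ℝ} (hd : 0 < d) : d ^ (-η) = Real.exp (η * Real.log (1 / d)) := by
  rw [Real.rpow_def_of_pos hd, one_div, Real.log_inv]
  ring_nf

theorem exp_log_rpow' {d η : ℝ} (hd : 0 < d) : d ^ η = Real.exp (-(η * Real.log (1 / d))) := by
  rw [Real.rpow_def_of_pos hd, one_div, Real.log_inv]
  ring_nf

/-- bound for `G/N` -/
theorem GdivN {H : ℝ} {g g1 : ℂ → ℂ} {z : ℂ} {X : ℝ} (hX : 1 ≤ X) (hd : 0 < dp H z)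
    (hN : 1 / X ≤ Nn H g g1 z) : Gn H g g1 z / Nn H g g1 z ≤ 2 * X := by
  have hX0 : 0 < X := by linarith
  have hN0 : 0 < Nn H g g1 z := lt_of_lt_of_le (by positivity) hN
  have hG := Gn_nonneg (g := g) (g1 := g1) hd
  rw [div_le_iff₀ hN0]
  have h1 : 1 ≤ X * Nn H g g1 z := by
    rw [div_le_iff₀ hX0] at hN; linarith
  have h2 := Gn_le_Nn (H := H) (g := g) (g1 := g1) (z := z)
  have h3 : Gn H g g1 z ^ 2 ≤ (2 * X * Nn H g g1 z) ^ 2 := by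
    have h4 : 2 * Nn H g g1 z ≤ 4 * Nn H g g1 z * (X * Nn H g g1 z) := by nlinarith
    have h5 : 4 * Nn H g g1 z * (X * Nn H g g1 z) ≤ (2 * X * Nn H g g1 z) ^ 2 := by
      have : (2 * X * Nn H g g1 z) ^ 2 = X * (4 * Nn H g g1 z * (X * Nn H g g1 z)) := by ring
      rw [this]
      exact le_mul_of_one_le_left (by positivity) hX
    linarith
  exact le_of_sq_le_sq h3 (by positivity)

theorem cone_seg {H b A δ : ℝ} {z z' : ℂ} (hz : z ∈ Cone H b A δ)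
    (hz' : z' ∈ Cone H b A δ) (hdd : dp H z' ≤ dp H z) {t : ℝ} (ht : t ∈ Icc (0 : ℝ) 1) :
    z + t • (z' - z) ∈ Cone H b A δ ∧ dp H z' ≤ dp H (z + t • (z' - z)) := by
  have h1 : dp H (z + t • (z' - z)) = (1 - t) * dp H z + t * dp H z' := by
    rw [dp_affine]; simp [dp]; ring
  have h2 : (z + t • (z' - z)).re - b = (1 - t) * (z.re - b) + t * (z'.re - b) := by
    simp; ring
  have ht0 := ht.1
  have ht1 : 0 ≤ 1 - t := by linarith [ht.2]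
  refine ⟨⟨?_, ?_, ?_⟩, ?_⟩
  · rw [h1, h2]
    calc |(1 - t) * (z.re - b) + t * (z'.re - b)|
        ≤ |(1 - t) * (z.re - b)| + |t * (z'.re - b)| := abs_add_le _ _
      _ = (1 - t) * |z.re - b| + t * |z'.re - b| := by
          rw [abs_mul, abs_mul, abs_of_nonneg ht1, abs_of_nonneg ht0]
      _ ≤ (1 - t) * (A * dp H z) + t * (A * dp H z') := by
          gcongr
          · exact hz.1
          · exact hz'.1
      _ = A * ((1 - t) * dp H z + t * dp H z') := by ring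
  · rw [h1]
    nlinarith [hz.2.1, hz'.2.1, mul_nonneg ht1 (sub_nonneg.mpr hdd)]
  · rw [h1]
    nlinarith [hz.2.2, hz'.2.2, mul_nonneg ht0 (sub_nonneg.mpr hdd)]
  · rw [h1]
    nlinarith [mul_nonneg ht1 (sub_nonneg.mpr hdd)]

theorem cone_dist {H b A δ : ℝ} {z z' : ℂ} (hz : z ∈ Cone H b A δ) (hA : 0 < A)
    (hz' : z' ∈ Cone H b A δ) (hdd : dp H z' ≤ dp H z) (hdd2 : dp H z ≤ 2 * dp H z') :
    ‖z' - z‖ ≤ (3 * A + 1) * dp H z' := by
  have h1 : |(z' - z).re| ≤ 3 * A * dp H z' := by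
    have e : (z' - z).re = (z'.re - b) - (z.re - b) := by simp
    rw [e]
    calc |(z'.re - b) - (z.re - b)| ≤ |z'.re - b| + |z.re - b| := abs_sub _ _
      _ ≤ A * dp H z' + A * dp H z := add_le_add hz'.1 hz.1
      _ ≤ A * dp H z' + A * (2 * dp H z') := by gcongr
      _ = 3 * A * dp H z' := by ring
  have h2 : |(z' - z).im| ≤ dp H z' := by
    have e : (z' - z).im = dp H z - dp H z' := by simp [dp]
    rw [e, abs_of_nonneg (by linarith)]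
    linarith
  calc ‖z' - z‖ ≤ |(z' - z).re| + |(z' - z).im| := Complex.norm_le_abs_re_add_abs_im _
    _ ≤ (3 * A + 1) * dp H z' := by linarith

theorem diff_bound {y y1 a a1 P P' : ℂ} {d S S' : ℝ} (hd : 0 ≤ d)
    (h1 : ‖y - P * a‖ + d * ‖y1 - P * a1‖ ≤ S) (h2 : ‖y - P' * a‖ + d * ‖y1 - P' * a1‖ ≤ S') :
    ‖P' - P‖ * (‖a‖ + d * ‖a1‖) ≤ S + S' := by
  have e1 : ‖P' - P‖ * ‖a‖ ≤ ‖y - P * a‖ + ‖y - P' * a‖ := by
    rw [← norm_mul]
    have : (P' - P) * a = (y - P * a) - (y - P' * a) := by ring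
    rw [this]
    exact norm_sub_le _ _
  have e2 : ‖P' - P‖ * ‖a1‖ ≤ ‖y1 - P * a1‖ + ‖y1 - P' * a1‖ := by
    rw [← norm_mul]
    have : (P' - P) * a1 = (y1 - P * a1) - (y1 - P' * a1) := by ring
    rw [this]
    exact norm_sub_le _ _
  have e4 := mul_le_mul_of_nonneg_left e2 hd
  calc ‖P' - P‖ * (‖a‖ + d * ‖a1‖) = ‖P' - P‖ * ‖a‖ + d * (‖P' - P‖ * ‖a1‖) := by ring
    _ ≤ S + S' := by linarith

theorem final_arith {A e X κ d' M : ℝ} (hA : 0 < A) (he : 0 ≤ e) (hX : X = Real.exp e)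
    (hκ : κ = 1 + e) (hd' : 0 < d')
    (hM : M = Real.exp (κ * (3 * A + 1)) * ((4 + (3 * A + 1)) * κ * X ^ 2)) :
    X * (2 * d' * M + 2 * d' * X ^ 2) ≤
      2 * (3 * A + 6) * Real.exp (3 * A + 2) * Real.exp ((3 * A + 5) * e) * d' := by
  set L : ℝ := 3 * A + 1 with hL
  have hL0 : 0 < L := by positivity
  have hX0 : 0 < X := by rw [hX]; exact Real.exp_pos _
  have hκ1 : 1 ≤ κ := by linarith
  have hκexp : κ ≤ Real.exp κ := by linarith [Real.add_one_le_exp κ]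
  have hEL1 : 1 ≤ Real.exp (κ * L) := Real.one_le_exp (by positivity)
  have h1 : X ^ 2 ≤ Real.exp (κ * L) * (κ * X ^ 2) := by
    have : 1 ≤ Real.exp (κ * L) * κ := by nlinarith
    calc X ^ 2 ≤ X ^ 2 * (Real.exp (κ * L) * κ) := le_mul_of_one_le_right (by positivity) this
      _ = _ := by ring
  have h3 : M + X ^ 2 ≤ (5 + L) * (Real.exp (κ * L) * κ) * X ^ 2 := by
    rw [hM]
    calc Real.exp (κ * L) * ((4 + L) * κ * X ^ 2) + X ^ 2
        ≤ Real.exp (κ * L) * ((4 + L) * κ * X ^ 2) + Real.exp (κ * L) * (κ * X ^ 2) := by gcongr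
      _ = _ := by ring
  have h4 : Real.exp (κ * L) * κ ≤ Real.exp (κ * (L + 1)) := by
    calc Real.exp (κ * L) * κ ≤ Real.exp (κ * L) * Real.exp κ := by gcongr
      _ = Real.exp (κ * (L + 1)) := by rw [← Real.exp_add]; ring_nf
  have h5 : Real.exp (κ * (L + 1)) * X ^ 3 =
      Real.exp (3 * A + 2) * Real.exp ((3 * A + 5) * e) := by
    rw [hX, ← Real.exp_nat_mul, ← Real.exp_add, ← Real.exp_add, hκ, hL]
    congr 1
    push_cast
    ring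
  calc X * (2 * d' * M + 2 * d' * X ^ 2) = 2 * d' * X * (M + X ^ 2) := by ring
    _ ≤ 2 * d' * X * ((5 + L) * (Real.exp (κ * L) * κ) * X ^ 2) := by gcongr
    _ = 2 * (5 + L) * (Real.exp (κ * L) * κ) * X ^ 3 * d' := by ring
    _ ≤ 2 * (5 + L) * Real.exp (κ * (L + 1)) * X ^ 3 * d' := by gcongr
    _ = 2 * (5 + L) * (Real.exp (κ * (L + 1)) * X ^ 3) * d' := by ring
    _ = 2 * (3 * A + 6) * Real.exp (3 * A + 2) *
        Real.exp ((3 * A + 5) * e) * d' := by rw [h5, hL]; ring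

/-- bound at the end point from the Gronwall bounds -/
theorem end_bound {a a1 K d' κ M : ℝ} (hd' : 0 < d') (hκ1 : 1 ≤ κ) (hK : K = κ / d')
    (hM0 : 0 ≤ M) (h1 : K * a ≤ M) (h2 : a1 ≤ M) : a + d' * a1 ≤ 2 * d' * M := by
  have hK0 : 0 < K := by rw [hK]; positivity
  have h3 : a ≤ M / K := by rw [le_div_iff₀ hK0, mul_comm]; exact h1
  have h4 : M / K ≤ d' * M := by
    rw [hK, div_div_eq_mul_div, div_le_iff₀ (by linarith)]
    nlinarith [mul_nonneg hd'.le hM0]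
  have h5 : d' * a1 ≤ d' * M := mul_le_mul_of_nonneg_left h2 hd'.le
  linarith

theorem growth_part {D D1 f Q : ℂ → ℂ} {z z' : ℂ} {d d' κ X L : ℝ} (hd' : 0 < d')
    (hdd : d' ≤ d) (hd'1 : d' < 1) (hκ1 : 1 ≤ κ) (hX1 : 1 ≤ X) (hL0 : 0 < L)
    (hv : ‖z' - z‖ ≤ L * d')
    (hD : ∀ t ∈ Icc (0 : ℝ) 1, HasDerivAt D (D1 (z + t • (z' - z))) (z + t • (z' - z)))
    (hD1 : ∀ t ∈ Icc (0 : ℝ) 1, HasDerivAt D1 (Q (z + t • (z' - z)) * D (z + t • (z' - z)) +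
      f (z + t • (z' - z))) (z + t • (z' - z)))
    (hQ : ∀ t ∈ Icc (0 : ℝ) 1, ‖Q (z + t • (z' - z))‖ ≤ (κ / d') ^ 2)
    (hf : ∀ t ∈ Icc (0 : ℝ) 1, ‖f (z + t • (z' - z))‖ ≤ X)
    (hS : ‖D z‖ + d * ‖D1 z‖ ≤ 4 * d' * X ^ 2) :
    ‖D z'‖ + d' * ‖D1 z'‖ ≤ 2 * d' * (Real.exp (κ * L) * ((4 + L) * κ * X ^ 2)) := by
  have hX0 : 0 < X := by linarith
  have hK0 : 0 < κ / d' := by positivity
  have hgr := seg_growth hK0 hX0.le hD hD1 hQ hf
  have hzv : z + (z' - z) = z' := by ring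
  rw [hzv] at hgr
  obtain ⟨hg1, hg2⟩ := hgr
  have hBb : κ / d' * ‖D z‖ + ‖D1 z‖ + X * ‖z' - z‖ ≤ (4 + L) * κ * X ^ 2 := by
    have h3 : ‖D1 z‖ ≤ κ / d' * (d * ‖D1 z‖) := by
      rw [← mul_assoc]
      have h4 : 1 ≤ κ / d' * d := by
        rw [div_mul_eq_mul_div, le_div_iff₀ hd']
        nlinarith
      exact le_mul_of_one_le_left (norm_nonneg _) h4
    have h1 : κ / d' * ‖D z‖ + ‖D1 z‖ ≤ 4 * κ * X ^ 2 := by
      calc κ / d' * ‖D z‖ + ‖D1 z‖ ≤ κ / d' * (‖D z‖ + d * ‖D1 z‖) := by rw [mul_add]; linarith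
        _ ≤ κ / d' * (4 * d' * X ^ 2) := mul_le_mul_of_nonneg_left hS (by positivity)
        _ = 4 * κ * X ^ 2 := by field_simp
    have h6 : ‖z' - z‖ ≤ L := hv.trans (mul_le_of_le_one_right hL0.le hd'1.le)
    have h7 : X ≤ X ^ 2 := by nlinarith
    have h5 : X * ‖z' - z‖ ≤ L * κ * X ^ 2 := by
      calc X * ‖z' - z‖ ≤ X * L := mul_le_mul_of_nonneg_left h6 hX0.le
        _ ≤ X ^ 2 * (L * κ) := by
            have : L ≤ L * κ := le_mul_of_one_le_right hL0.le hκ1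
            gcongr
        _ = L * κ * X ^ 2 := by ring
    calc κ / d' * ‖D z‖ + ‖D1 z‖ + X * ‖z' - z‖ ≤ 4 * κ * X ^ 2 + L * κ * X ^ 2 := add_le_add h1 h5
      _ = (4 + L) * κ * X ^ 2 := by ring
  have hexp : Real.exp (κ / d' * ‖z' - z‖) ≤ Real.exp (κ * L) := by
    refine Real.exp_le_exp.mpr ?_
    calc κ / d' * ‖z' - z‖ ≤ κ / d' * (L * d') := by gcongr
      _ = κ * L := by field_simp
  have hM : Real.exp (κ / d' * ‖z' - z‖) * (κ / d' * ‖D z‖ + ‖D1 z‖ + X * ‖z' - z‖) ≤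
      Real.exp (κ * L) * ((4 + L) * κ * X ^ 2) := by
    have hB0 : 0 ≤ κ / d' * ‖D z‖ + ‖D1 z‖ + X * ‖z' - z‖ := by positivity
    gcongr
  have hM0 : 0 ≤ Real.exp (κ * L) * ((4 + L) * κ * X ^ 2) := by positivity
  exact end_bound hd' hκ1 rfl hM0 (hg1.trans hM) (hg2.trans hM)

theorem own_pt {H : ℝ} {g g1 Y Y1 E : ℂ → ℂ} {z : ℂ} {X m : ℝ} (hd : 0 < dp H z)
    (hX1 : 1 ≤ X) (hN : 1 / X ≤ Nn H g g1 z) (hE : ‖E z‖ ≤ X)
    (hW : Y1 z * g z - Y z * g1 z = E z) (hm : dp H z ≤ m) :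
    ‖Y z - Pc H g g1 Y Y1 z * g z‖ + dp H z * ‖Y1 z - Pc H g g1 Y Y1 z * g1 z‖ ≤
      2 * m * X ^ 2 := by
  have hX0 : 0 < X := by linarith
  have hN0 : 0 < Nn H g g1 z := lt_of_lt_of_le (by positivity) hN
  have hm0 : 0 < m := hd.trans_le hm
  rw [proj_bound hN0 hd hW, mul_div_assoc]
  calc dp H z * ‖E z‖ * (Gn H g g1 z / Nn H g g1 z) ≤ m * X * (2 * X) := by
        gcongr
        · exact div_nonneg (Gn_nonneg hd) hN0.le
        · exact GdivN hX1 hd hN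
    _ = 2 * m * X ^ 2 := by ring

/-- monotonicity facts in the window -/
theorem win_facts {H η d' : ℝ} {g g1 Y Y1 Q f E : ℂ → ℂ} (hη : 0 < η) (hd' : 0 < d') {w : ℂ}
    (h1 : d' ≤ dp H w) (h2 : dp H w < 1) (hw : Pt H g g1 Y Y1 Q f E η w) :
    ‖E w‖ ≤ Real.exp (η * Real.log (1 / d')) ∧ ‖f w‖ ≤ Real.exp (η * Real.log (1 / d')) ∧
    1 / Real.exp (η * Real.log (1 / d')) ≤ Nn H g g1 w ∧
    ‖Q w‖ ≤ ((1 + η * Real.log (1 / d')) / d') ^ 2 := by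
  have h0 : 0 < dp H w := hd'.trans_le h1
  have hl0 : 0 ≤ Real.log (1 / dp H w) := Real.log_nonneg (by rw [le_div_iff₀ h0]; linarith)
  have hl1 : Real.log (1 / dp H w) ≤ Real.log (1 / d') :=
    Real.log_le_log (by positivity) (one_div_le_one_div_of_le hd' h1)
  have hmul := mul_le_mul_of_nonneg_left hl1 hη.le
  have hpow : dp H w ^ (-η) ≤ Real.exp (η * Real.log (1 / d')) := by
    rw [exp_log_rpow h0]
    exact Real.exp_le_exp.mpr hmul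
  refine ⟨hw.bE.trans hpow, hw.bf.trans hpow, ?_, ?_⟩
  · refine le_trans ?_ hw.bN
    rw [exp_log_rpow' h0, one_div, ← Real.exp_neg]
    exact Real.exp_le_exp.mpr (neg_le_neg hmul)
  · rw [div_pow, le_div_iff₀ (by positivity)]
    have h3 := mul_nonneg hη.le hl0
    calc ‖Q w‖ * d' ^ 2 ≤ ‖Q w‖ * dp H w ^ 2 := by gcongr
      _ ≤ (η * Real.log (1 / dp H w)) ^ 2 := hw.bQ
      _ ≤ (1 + η * Real.log (1 / d')) ^ 2 := by
          gcongr
          linarith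

/-- the step estimate -/
theorem step {H b A δ η : ℝ} {g g1 Y Y1 Q f E : ℂ → ℂ} (hA : 0 < A) (hη : 0 < η) (hδ1 : δ ≤ 1)
    (hP : ∀ z ∈ Cone H b A δ, Pt H g g1 Y Y1 Q f E η z) {z z' : ℂ}
    (hz : z ∈ Cone H b A δ) (hz' : z' ∈ Cone H b A δ) (hdd : dp H z' ≤ dp H z)
    (hdd2 : dp H z ≤ 2 * dp H z') :
    ‖Pc H g g1 Y Y1 z' - Pc H g g1 Y Y1 z‖ ≤
      2 * (3 * A + 6) * Real.exp (3 * A + 2) *
        Real.exp ((3 * A + 5) * (η * Real.log (1 / dp H z'))) * dp H z' := by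
  have hd'0 : 0 < dp H z' := hz'.2.1
  have hd0 : 0 < dp H z := hz.2.1
  have hd'1 : dp H z' < 1 := hz'.2.2.trans_le hδ1
  have hd1 : dp H z < 1 := hz.2.2.trans_le hδ1
  have hl0 : 0 ≤ Real.log (1 / dp H z') := Real.log_nonneg (by rw [le_div_iff₀ hd'0]; linarith)
  have he0 : 0 ≤ η * Real.log (1 / dp H z') := mul_nonneg hη.le hl0
  have hX1 : 1 ≤ Real.exp (η * Real.log (1 / dp H z')) := Real.one_le_exp he0
  have hX0 : 0 < Real.exp (η * Real.log (1 / dp H z')) := Real.exp_pos _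
  have hκ1 : 1 ≤ 1 + η * Real.log (1 / dp H z') := by linarith
  have hvL : ‖z' - z‖ ≤ (3 * A + 1) * dp H z' := cone_dist hz hA hz' hdd hdd2
  obtain ⟨hEz, -, hNz, -⟩ := win_facts hη hd'0 hdd hd1 (hP z hz)
  obtain ⟨hEz', -, hNz', -⟩ := win_facts hη hd'0 le_rfl hd'1 (hP z' hz')
  have hseg : ∀ t ∈ Icc (0 : ℝ) 1, z + t • (z' - z) ∈ Cone H b A δ ∧
      dp H z' ≤ dp H (z + t • (z' - z)) := fun t ht => cone_seg hz hz' hdd ht
  have hw : ∀ t ∈ Icc (0 : ℝ) 1, _ := fun t ht =>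
    win_facts hη hd'0 (hseg t ht).2 ((hseg t ht).1.2.2.trans_le hδ1) (hP _ (hseg t ht).1)
  have hSz := own_pt hd0 hX1 hNz hEz (hP z hz).W hdd2
  have hSz' := own_pt hd'0 hX1 hNz' hEz' (hP z' hz').W le_rfl
  have hS' := growth_part (D := fun w => Y w - Pc H g g1 Y Y1 z * g w)
    (D1 := fun w => Y1 w - Pc H g g1 Y Y1 z * g1 w) (f := f) (Q := Q) hd'0 hdd hd'1 hκ1 hX1
    (show (0 : ℝ) < 3 * A + 1 by positivity) hvL
    (fun t ht => ((hP _ (hseg t ht).1).dY).sub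
      (((hP _ (hseg t ht).1).dg).const_mul (Pc H g g1 Y Y1 z)))
    (fun t ht => (((hP _ (hseg t ht).1).dY1).sub
      (((hP _ (hseg t ht).1).dg1).const_mul (Pc H g g1 Y Y1 z))).congr_deriv (by ring))
    (fun t ht => (hw t ht).2.2.2) (fun t ht => (hw t ht).2.1)
    (hSz.trans (by nlinarith))
  have hdiff := diff_bound hd'0.le hS' hSz'
  have hGinv : 1 ≤ Real.exp (η * Real.log (1 / dp H z')) * Gn H g g1 z' := by
    have h1 := hNz'.trans (Nn_le_Gn hd'0)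
    have h2 : (1 : ℝ) ^ 2 ≤ (Real.exp (η * Real.log (1 / dp H z')) * Gn H g g1 z') ^ 2 := by
      rw [div_le_iff₀ hX0] at h1
      have h3 : (Real.exp (η * Real.log (1 / dp H z')) * Gn H g g1 z') ^ 2 =
        Real.exp (η * Real.log (1 / dp H z')) *
          (Gn H g g1 z' ^ 2 * Real.exp (η * Real.log (1 / dp H z'))) := by ring
      rw [h3]
      nlinarith
    exact le_of_sq_le_sq h2 (mul_nonneg hX0.le (Gn_nonneg hd'0))
  refine (le_mul_of_one_le_right (norm_nonneg _) hGinv).trans ?_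
  have e : ‖Pc H g g1 Y Y1 z' - Pc H g g1 Y Y1 z‖ *
      (Real.exp (η * Real.log (1 / dp H z')) * Gn H g g1 z') =
      Real.exp (η * Real.log (1 / dp H z')) *
        (‖Pc H g g1 Y Y1 z' - Pc H g g1 Y Y1 z‖ * (‖g z'‖ + dp H z' * ‖g1 z'‖)) := by
    unfold Gn; ring
  rw [e]
  exact (mul_le_mul_of_nonneg_left hdiff hX0.le).trans (final_arith hA he0 rfl rfl hd'0 rfl)

/-- hypotheses in all cones, all exponents -/
def Hyp (H b : ℝ) (g g1 Y Y1 Q f E : ℂ → ℂ) : Prop :=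
  ∀ A > 0, ∀ η > 0, ∃ δ > 0, ∀ z ∈ Cone H b A δ, Pt H g g1 Y Y1 Q f E η z

theorem small_pow {η c : ℝ} (hη : 0 < η) (hc : 0 < c) :
    ∃ δ > 0, δ ≤ 1 ∧ ∀ d, 0 < d → d < δ → d ^ η ≤ c := by
  refine ⟨min 1 (c ^ (1 / η)), lt_min one_pos (by positivity), min_le_left _ _, ?_⟩
  intro d hd hdδ
  have h1 : d ≤ c ^ (1 / η) := (hdδ.le).trans (min_le_right _ _)
  calc d ^ η ≤ (c ^ (1 / η)) ^ η := Real.rpow_le_rpow hd.le h1 hη.le
    _ = c := by rw [← Real.rpow_mul hc.le, one_div, inv_mul_cancel₀ hη.ne', Real.rpow_one]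

theorem step' {H b : ℝ} {g g1 Y Y1 Q f E : ℂ → ℂ} (h : Hyp H b g g1 Y Y1 Q f E)
    {A η c : ℝ} (hA : 0 < A) (hη : 0 < η) (hc : 0 < c) :
    ∃ δ > 0, ∀ z ∈ Cone H b A δ, ∀ z' ∈ Cone H b A δ, dp H z' ≤ dp H z → dp H z ≤ 2 * dp H z' →
      ‖Pc H g g1 Y Y1 z' - Pc H g g1 Y Y1 z‖ ≤ c * dp H z' ^ (1 - η) := by
  set C : ℝ := 2 * (3 * A + 6) * Real.exp (3 * A + 2) with hC
  have hC0 : 0 < C := by positivity
  set η₁ := η / (2 * (3 * A + 5)) with hη₁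
  have hη₁0 : 0 < η₁ := by positivity
  obtain ⟨δ₁, hδ₁, hP⟩ := h A hA η₁ hη₁0
  obtain ⟨δ₂, hδ₂, hδ₂1, hs⟩ := small_pow (half_pos hη) (div_pos hc hC0)
  refine ⟨min δ₁ δ₂, lt_min hδ₁ hδ₂, ?_⟩
  intro z hz z' hz' hdd hdd2
  have hsub : Cone H b A (min δ₁ δ₂) ⊆ Cone H b A δ₁ := cone_mono le_rfl (min_le_left _ _)
  have hst := step (δ := min δ₁ δ₂) hA hη₁0 ((min_le_right _ _).trans hδ₂1)
    (fun w hw => hP w (hsub hw)) hz hz' hdd hdd2
  have hd' : 0 < dp H z' := hz'.2.1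
  have hd'δ : dp H z' < δ₂ := hz'.2.2.trans_le (min_le_right _ _)
  refine hst.trans ?_
  have e1 : (3 * A + 5) * (η₁ * Real.log (1 / dp H z')) = (η / 2) * Real.log (1 / dp H z') := by
    rw [hη₁]; field_simp
  rw [e1, ← exp_log_rpow hd']
  have e2 : dp H z' ^ (-(η / 2)) * dp H z' = dp H z' ^ (η / 2) * dp H z' ^ (1 - η) := by
    rw [← Real.rpow_add_one hd'.ne', ← Real.rpow_add hd']
    congr 1; ring
  calc C * dp H z' ^ (-(η / 2)) * dp H z' = C * (dp H z' ^ (-(η / 2)) * dp H z') := by ring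
    _ = C * (dp H z' ^ (η / 2) * dp H z' ^ (1 - η)) := by rw [e2]
    _ ≤ C * (c / C * dp H z' ^ (1 - η)) := by
        have := hs _ hd' hd'δ
        have h0 : 0 ≤ dp H z' ^ (1 - η) := Real.rpow_nonneg hd'.le _
        gcongr
    _ = c * dp H z' ^ (1 - η) := by field_simp

theorem own' {H b : ℝ} {g g1 Y Y1 Q f E : ℂ → ℂ} (h : Hyp H b g g1 Y Y1 Q f E)
    {A η c : ℝ} (hA : 0 < A) (hη : 0 < η) (hc : 0 < c) :
    ∃ δ > 0, ∀ z ∈ Cone H b A δ,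
      ‖Y z - Pc H g g1 Y Y1 z * g z‖ + dp H z * ‖Y1 z - Pc H g g1 Y Y1 z * g1 z‖ ≤
        c * dp H z ^ (1 - η) * Gn H g g1 z := by
  obtain ⟨δ₁, hδ₁, hP⟩ := h A hA (η / 4) (by positivity)
  obtain ⟨δ₂, hδ₂, hδ₂1, hs⟩ := small_pow (half_pos hη) hc
  refine ⟨min δ₁ δ₂, lt_min hδ₁ hδ₂, ?_⟩
  intro z hz
  have hp := hP z (cone_mono le_rfl (min_le_left _ _) hz)
  have hd : 0 < dp H z := hz.2.1
  have hpos : 0 < dp H z ^ (η / 4) := Real.rpow_pos_of_pos hd _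
  have hN : dp H z ^ (η / 4) ≤ Nn H g g1 z := hp.bN
  have hN0 : 0 < Nn H g g1 z := hpos.trans_le hN
  rw [proj_bound hN0 hd hp.W]
  have hG := Gn_nonneg (g := g) (g1 := g1) hd
  have h1 : 1 / Nn H g g1 z ≤ dp H z ^ (-(η / 4)) := by
    rw [Real.rpow_neg hd.le, ← one_div]
    exact one_div_le_one_div_of_le hpos hN
  have e2 : dp H z * dp H z ^ (-(η / 4)) * dp H z ^ (-(η / 4)) =
      dp H z ^ (η / 2) * dp H z ^ (1 - η) := by
    rw [mul_assoc, ← Real.rpow_add hd, mul_comm, ← Real.rpow_add_one hd.ne', ← Real.rpow_add hd]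
    congr 1; ring
  calc dp H z * ‖E z‖ * Gn H g g1 z / Nn H g g1 z
      = dp H z * ‖E z‖ * (1 / Nn H g g1 z) * Gn H g g1 z := by ring
    _ ≤ dp H z * dp H z ^ (-(η / 4)) * dp H z ^ (-(η / 4)) * Gn H g g1 z := by
        gcongr
        exact hp.bE
    _ = dp H z ^ (η / 2) * dp H z ^ (1 - η) * Gn H g g1 z := by rw [e2]
    _ ≤ c * dp H z ^ (1 - η) * Gn H g g1 z := by
        have := hs _ hd (hz.2.2.trans_le (min_le_right _ _))
        have h0 : 0 ≤ dp H z ^ (1 - η) := Real.rpow_nonneg hd.le _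
        gcongr

/-- point on the axis -/
noncomputable def ax (H b t : ℝ) : ℂ := ⟨b, H - t⟩

theorem dp_ax (H b t : ℝ) : dp H (ax H b t) = t := by simp [dp, ax]

theorem ax_mem {H b A δ t : ℝ} (hA : 0 < A) (ht : 0 < t) (htδ : t < δ) :
    ax H b t ∈ Cone H b A δ := by
  refine ⟨?_, by rw [dp_ax]; exact ht, by rw [dp_ax]; exact htδ⟩
  rw [dp_ax]; simp [ax]; positivity

theorem half_rpow {η : ℝ} (hη : η ≤ 1 / 2) : (1 / 2 : ℝ) ^ (1 - η) ≤ 3 / 4 := by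
  have h1 : (1 / 2 : ℝ) ^ (1 - η) ≤ (1 / 2 : ℝ) ^ (1 / 2 : ℝ) :=
    Real.rpow_le_rpow_of_exponent_ge (by norm_num) (by norm_num) (by linarith)
  refine h1.trans ?_
  rw [← Real.sqrt_eq_rpow]
  rw [Real.sqrt_le_left (by norm_num)]
  norm_num

theorem axis' {H b : ℝ} {g g1 Y Y1 Q f E : ℂ → ℂ} (h : Hyp H b g g1 Y Y1 Q f E)
    {η c : ℝ} (hη : 0 < η) (hη2 : η ≤ 1 / 2) (hc : 0 < c) :
    ∃ δ > 0, ∀ s t : ℝ, 0 < s → s ≤ t → t < δ →
      ‖Pc H g g1 Y Y1 (ax H b s) - Pc H g g1 Y Y1 (ax H b t)‖ ≤ 3 * c * t ^ (1 - η) := by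
  obtain ⟨δ, hδ, hst⟩ := step' h one_pos hη hc
  refine ⟨δ, hδ, ?_⟩
  have key : ∀ n : ℕ, ∀ s t : ℝ, 0 < s → s ≤ t → t < δ → t ≤ 2 ^ (n + 1) * s →
      ‖Pc H g g1 Y Y1 (ax H b s) - Pc H g g1 Y Y1 (ax H b t)‖ ≤ 3 * c * t ^ (1 - η) := by
    intro n
    induction n with
    | zero =>
      intro s t hs hst' htδ h2
      have ht : 0 < t := hs.trans_le hst'
      have h3 := hst (ax H b t) (ax_mem one_pos ht htδ) (ax H b s)
        (ax_mem one_pos hs (hst'.trans_lt htδ)) (by rw [dp_ax, dp_ax]; exact hst')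
        (by rw [dp_ax, dp_ax]; simpa using h2)
      rw [dp_ax] at h3
      have h4 : s ^ (1 - η) ≤ t ^ (1 - η) := Real.rpow_le_rpow hs.le hst' (by linarith)
      have h5 : 0 ≤ t ^ (1 - η) := Real.rpow_nonneg ht.le _
      nlinarith
    | succ n ih =>
      intro s t hs hst' htδ h2
      have ht : 0 < t := hs.trans_le hst'
      by_cases h3 : t ≤ 2 ^ (n + 1) * s
      · exact ih s t hs hst' htδ h3
      · push Not at h3
        have h4 : s ≤ t / 2 := by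
          have h5 : (2 : ℝ) ≤ 2 ^ (n + 1) := by
            rw [pow_succ]
            have : (1 : ℝ) ≤ 2 ^ n := one_le_pow₀ (by norm_num)
            linarith
          have h6 : 2 * s ≤ 2 ^ (n + 1) * s := mul_le_mul_of_nonneg_right h5 hs.le
          linarith
        have h7 : t / 2 ≤ 2 ^ (n + 1) * s := by
          rw [pow_succ] at h2
          linarith
        have h8 := ih s (t / 2) hs h4 (by linarith) h7
        have h9 := hst (ax H b t) (ax_mem one_pos ht htδ) (ax H b (t / 2))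
          (ax_mem one_pos (by linarith) (by linarith)) (by rw [dp_ax, dp_ax]; linarith)
          (by rw [dp_ax, dp_ax]; linarith)
        rw [dp_ax] at h9
        have h10 : (t / 2) ^ (1 - η) ≤ 3 / 4 * t ^ (1 - η) := by
          have e : t / 2 = (1 / 2) * t := by ring
          rw [e, Real.mul_rpow (by norm_num) ht.le]
          exact mul_le_mul_of_nonneg_right (half_rpow hη2) (Real.rpow_nonneg ht.le _)
        calc ‖Pc H g g1 Y Y1 (ax H b s) - Pc H g g1 Y Y1 (ax H b t)‖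
            ≤ ‖Pc H g g1 Y Y1 (ax H b s) - Pc H g g1 Y Y1 (ax H b (t / 2))‖ +
              ‖Pc H g g1 Y Y1 (ax H b (t / 2)) - Pc H g g1 Y Y1 (ax H b t)‖ :=
              norm_sub_le_norm_sub_add_norm_sub _ _ _
          _ ≤ 3 * c * (t / 2) ^ (1 - η) + c * (t / 2) ^ (1 - η) := add_le_add h8 h9
          _ = 4 * c * (t / 2) ^ (1 - η) := by ring
          _ ≤ 4 * c * (3 / 4 * t ^ (1 - η)) := by gcongr
          _ = 3 * c * t ^ (1 - η) := by ring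
  intro s t hs hst' htδ
  obtain ⟨n, hn⟩ := pow_unbounded_of_one_lt (t / s) (one_lt_two)
  refine key n s t hs hst' htδ ?_
  rw [div_lt_iff₀ hs] at hn
  rw [pow_succ]
  have : 0 < (2 : ℝ) ^ n * s := by positivity
  nlinarith

/-- **Row QL**: quasi-limit at a boundary point. -/
theorem quasi_limit {H b : ℝ} {g g1 Y Y1 Q f E : ℂ → ℂ} (h : Hyp H b g g1 Y Y1 Q f E) :
    ∃ P : ℂ, ∀ A : ℝ, 0 < A → ∀ η : ℝ, 0 < η → ∃ δ > 0, ∀ z ∈ Cone H b A δ,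
      ‖Y z - P * g z‖ + dp H z * ‖Y1 z - P * g1 z‖ ≤
        dp H z ^ (1 - η) * (‖g z‖ + dp H z * ‖g1 z‖) := by
  set p : ℝ → ℂ := fun t => Pc H g g1 Y Y1 (ax H b t) with hp
  have hseq : CauchySeq (fun n : ℕ => p (1 / ((n : ℝ) + 1))) := by
    obtain ⟨δ, hδ, hax⟩ := axis' h (η := 1 / 2) (c := 1) (by norm_num) le_rfl one_pos
    rw [Metric.cauchySeq_iff']
    intro ε hε
    obtain ⟨δ₂, hδ₂, -, hs⟩ := small_pow (η := 1 - 1 / 2) (c := ε / 6) (by norm_num) (by positivity)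
    obtain ⟨N, hN⟩ := exists_nat_one_div_lt (lt_min hδ hδ₂)
    refine ⟨N, fun n hn => ?_⟩
    have h1 : (1 : ℝ) / ((n : ℝ) + 1) ≤ 1 / ((N : ℝ) + 1) := by
      have : (N : ℝ) ≤ n := by exact_mod_cast hn
      exact one_div_le_one_div_of_le (by positivity) (by linarith)
    have h2 := hax (1 / ((n : ℝ) + 1)) (1 / ((N : ℝ) + 1)) (by positivity) h1
      (hN.trans_le (min_le_left _ _))
    have h3 := hs (1 / ((N : ℝ) + 1)) (by positivity) (hN.trans_le (min_le_right _ _))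
    rw [dist_eq_norm]
    calc ‖p (1 / ((n : ℝ) + 1)) - p (1 / ((N : ℝ) + 1))‖
        ≤ 3 * 1 * (1 / ((N : ℝ) + 1)) ^ ((1 : ℝ) - 1 / 2) := h2
      _ ≤ 3 * 1 * (ε / 6) := by gcongr
      _ < ε := by linarith
  obtain ⟨P, hP⟩ := cauchySeq_tendsto_of_complete hseq
  refine ⟨P, fun A hA η hη => ?_⟩
  set η' := min η (1 / 2) with hη'
  have hη'0 : 0 < η' := lt_min hη (by norm_num)
  obtain ⟨δ₁, hδ₁, hax⟩ := axis' h (η := η') (c := 1 / 5) hη'0 (min_le_right _ _) (by norm_num)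
  obtain ⟨δ₂, hδ₂, hst⟩ := step' h (c := 1 / 5) hA hη'0 (by norm_num)
  obtain ⟨δ₃, hδ₃, hown⟩ := own' h (c := 1 / 5) hA hη'0 (by norm_num)
  refine ⟨min (min δ₁ δ₂) (min δ₃ 1), by positivity, ?_⟩
  intro z hz
  have hd : 0 < dp H z := hz.2.1
  have hm := hz.2.2
  have hd1 : dp H z < δ₁ := hm.trans_le ((min_le_left _ _).trans (min_le_left _ _))
  have hd2 : dp H z < δ₂ := hm.trans_le ((min_le_left _ _).trans (min_le_right _ _))
  have hd3 : dp H z < δ₃ := hm.trans_le ((min_le_right _ _).trans (min_le_left _ _))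
  have hd4 : dp H z < 1 := hm.trans_le ((min_le_right _ _).trans (min_le_right _ _))
  have hlim : ‖P - p (dp H z)‖ ≤ 3 * (1 / 5) * dp H z ^ (1 - η') := by
    have ht : Tendsto (fun n : ℕ => ‖p (1 / ((n : ℝ) + 1)) - p (dp H z)‖) atTop
        (𝓝 ‖P - p (dp H z)‖) := (hP.sub_const _).norm
    refine le_of_tendsto ht ?_
    have hev : ∀ᶠ n : ℕ in atTop, (1 : ℝ) / ((n : ℝ) + 1) < dp H z :=
      (tendsto_one_div_add_atTop_nhds_zero_nat).eventually_lt_const hd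
    filter_upwards [hev] with n hn
    exact hax _ _ (by positivity) hn.le hd1
  have hz2 : z ∈ Cone H b A δ₂ := ⟨hz.1, hd, hd2⟩
  have hz3 : z ∈ Cone H b A δ₃ := ⟨hz.1, hd, hd3⟩
  have hcross : ‖Pc H g g1 Y Y1 z - p (dp H z)‖ ≤ 1 / 5 * dp H z ^ (1 - η') := by
    have := hst (ax H b (dp H z)) (ax_mem hA hd hd2) z hz2 (by rw [dp_ax]) (by rw [dp_ax]; linarith)
    exact this
  have hPz : ‖Pc H g g1 Y Y1 z - P‖ ≤ 4 / 5 * dp H z ^ (1 - η') := by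
    have e : Pc H g g1 Y Y1 z - P = (Pc H g g1 Y Y1 z - p (dp H z)) - (P - p (dp H z)) := by ring
    rw [e]
    refine (norm_sub_le _ _).trans ?_
    linarith
  have hG := Gn_nonneg (g := g) (g1 := g1) hd
  have ho := hown z hz3
  have t1 : ‖Y z - P * g z‖ ≤ ‖Y z - Pc H g g1 Y Y1 z * g z‖ +
      ‖Pc H g g1 Y Y1 z - P‖ * ‖g z‖ := by
    rw [← norm_mul]
    have e : Y z - P * g z = (Y z - Pc H g g1 Y Y1 z * g z) + (Pc H g g1 Y Y1 z - P) * g z := by ring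
    rw [e]
    exact norm_add_le _ _
  have t2 : ‖Y1 z - P * g1 z‖ ≤ ‖Y1 z - Pc H g g1 Y Y1 z * g1 z‖ +
      ‖Pc H g g1 Y Y1 z - P‖ * ‖g1 z‖ := by
    rw [← norm_mul]
    have e : Y1 z - P * g1 z = (Y1 z - Pc H g g1 Y Y1 z * g1 z) +
      (Pc H g g1 Y Y1 z - P) * g1 z := by ring
    rw [e]
    exact norm_add_le _ _
  have hpw : dp H z ^ (1 - η') ≤ dp H z ^ (1 - η) :=
    Real.rpow_le_rpow_of_exponent_ge hd hd4.le (by linarith [min_le_left η (1 / 2)])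
  calc ‖Y z - P * g z‖ + dp H z * ‖Y1 z - P * g1 z‖
      ≤ (‖Y z - Pc H g g1 Y Y1 z * g z‖ + ‖Pc H g g1 Y Y1 z - P‖ * ‖g z‖) +
        dp H z * (‖Y1 z - Pc H g g1 Y Y1 z * g1 z‖ + ‖Pc H g g1 Y Y1 z - P‖ * ‖g1 z‖) := by
        gcongr
    _ = (‖Y z - Pc H g g1 Y Y1 z * g z‖ + dp H z * ‖Y1 z - Pc H g g1 Y Y1 z * g1 z‖) +
        ‖Pc H g g1 Y Y1 z - P‖ * Gn H g g1 z := by unfold Gn; ring
    _ ≤ 1 / 5 * dp H z ^ (1 - η') * Gn H g g1 z + 4 / 5 * dp H z ^ (1 - η') * Gn H g g1 z :=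
        add_le_add ho (mul_le_mul_of_nonneg_right hPz hG)
    _ = dp H z ^ (1 - η') * Gn H g g1 z := by ring
    _ ≤ dp H z ^ (1 - η) * Gn H g g1 z := mul_le_mul_of_nonneg_right hpw hG
    _ = dp H z ^ (1 - η) * (‖g z‖ + dp H z * ‖g1 z‖) := rfl

end Vale.Agent.P097.H740
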