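import Mathlib

/-! # P097 / row A5.T-NORM, part 1: path integral of the growth bound (G) at a pick -/

open Complex Metric Filter Topology Set

namespace Vale.Agent.P097.H740.TN

/-- depth in the straight base tube `{Im t' < 0 < Im w}` -/
noncomputable def rh (z : ℂ × ℂ) : ℝ := min (-z.1.im) z.2.im

/-- lifting direction -/
noncomputable def vv : ℂ × ℂ := (-I, I)

/-- the point lifted by `s` -/
noncomputable def up (z : ℂ × ℂ) (s : ℝ) : ℂ × ℂ := z + s • vv

theorem norm_vv : ‖vv‖ = 1 := by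
  unfold vv
  rw [Prod.norm_def]
  simp

theorem up_fst_im (z : ℂ × ℂ) (s : ℝ) : (up z s).1.im = z.1.im - s := by
  unfold up vv
  simp
  ring

theorem up_snd_im (z : ℂ × ℂ) (s : ℝ) : (up z s).2.im = z.2.im + s := by
  unfold up vv
  simp

theorem rh_up (z : ℂ × ℂ) (s : ℝ) : rh (up z s) = rh z + s := by
  unfold rh
  rw [up_fst_im, up_snd_im, show -(z.1.im - s) = -z.1.im + s by ring, min_add_add_right]

theorem up_zero (z : ℂ × ℂ) : up z 0 = z := by simp [up]

theorem norm_up_sub (z : ℂ × ℂ) {s : ℝ} (hs : 0 ≤ s) : ‖up z s - z‖ = s := by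
  unfold up
  rw [add_sub_cancel_left, norm_smul, norm_vv, mul_one, Real.norm_of_nonneg hs]

theorem rh_lip (x y : ℂ × ℂ) : rh x ≤ rh y + ‖x - y‖ := by
  have h1 : |x.1.im - y.1.im| ≤ ‖x - y‖ := by
    rw [← Complex.sub_im]
    exact (Complex.abs_im_le_norm _).trans (norm_fst_le (x - y))
  have h2 : |x.2.im - y.2.im| ≤ ‖x - y‖ := by
    rw [← Complex.sub_im]
    exact (Complex.abs_im_le_norm _).trans (norm_snd_le (x - y))
  obtain ⟨a1, a2⟩ := abs_le.1 h1
  obtain ⟨b1, b2⟩ := abs_le.1 h2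
  unfold rh
  rcases min_cases (-y.1.im) y.2.im with ⟨h, _⟩ | ⟨h, _⟩
  · rw [h]
    exact (min_le_left _ _).trans (by linarith)
  · rw [h]
    exact (min_le_right _ _).trans (by linarith)

/-- the distance of two windows -/
noncomputable def Dd (z₀ z : ℂ × ℂ) : ℝ := ‖z - z₀‖ + rh z₀ + rh z

variable {E : Type*} [NormedAddCommGroup E] [NormedSpace ℂ E]

theorem deriv_line {g : ℂ × ℂ → E} {p v : ℂ × ℂ} {s : ℝ}
    (h : DifferentiableAt ℂ g (p + s • v)) :
    HasDerivAt (fun τ : ℝ => g (p + τ • v)) (fderiv ℂ g (p + s • v) v) s := by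
  have h1 : HasDerivAt (fun τ : ℝ => p + τ • v) v s := by
    have := ((hasDerivAt_id s).smul_const v).const_add p
    simpa using this
  have h2 : HasFDerivAt g ((fderiv ℂ g (p + s • v)).restrictScalars ℝ) (p + s • v) :=
    h.hasFDerivAt.restrictScalars ℝ
  exact h2.comp_hasDerivAt s h1

/-- from (G) to the gradient when the bound is `< 1` -/
theorem grad_of {g : ℂ × ℂ → E} {x : ℂ × ℂ} {B : ℝ} (hx : 0 < rh x) (hB : B < 1)
    (h : min 1 (rh x * ‖fderiv ℂ g x‖) ≤ B) : ‖fderiv ℂ g x‖ ≤ B / rh x := by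
  rw [le_div_iff₀ hx, mul_comm]
  rcases min_le_iff.1 h with h1 | h1
  · linarith
  · exact h1

theorem pen_mono {a b ρ D D' r r' : ℝ} (ha : 0 < a) (hb : 0 < b) (hρ : 0 < ρ) (hD : 0 ≤ D)
    (hDD : D ≤ D') (hr : 0 < r) (hrr : r ≤ r') :
    (D / ρ) ^ a * (D / r') ^ b ≤ (D' / ρ) ^ a * (D' / r) ^ b := by
  have hr' : 0 < r' := hr.trans_le hrr
  have h1 : D / ρ ≤ D' / ρ := div_le_div_of_nonneg_right hDD hρ.le
  have h2 : D / r' ≤ D' / r := by
    apply div_le_div₀ (hD.trans hDD) hDD hr hrr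
  apply mul_le_mul
  · exact Real.rpow_le_rpow (by positivity) h1 ha.le
  · exact Real.rpow_le_rpow (by positivity) h2 hb.le
  · positivity
  · have : 0 ≤ D' := hD.trans hDD
    positivity

/-- **TN1 (path row)** -/
theorem path_bound {g : ℂ × ℂ → E} {z₀ z : ℂ × ℂ} {a b l om M : ℝ} (ha : 0 < a) (hb : 0 < b)
    (hM : 0 ≤ M) (h0 : 0 < rh z₀) (hl : rh z₀ ≤ l) (hom : 0 < om) (hom1 : om ≤ 1)
    (hz : om * l ≤ rh z) (hd : ‖z - z₀‖ ≤ l)
    (hdf : ∀ x, 0 < rh x → ‖x - z₀‖ ≤ 2 * l → DifferentiableAt ℂ g x)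
    (hG : ∀ x, 0 < rh x → ‖x - z₀‖ ≤ 2 * l → min 1 (rh x * ‖fderiv ℂ g x‖) ≤
      M * ((Dd z₀ x / rh z₀) ^ a * (Dd z₀ x / rh x) ^ b))
    (hs : M * (6 ^ (a + b) * ((l / rh z₀) ^ a * (1 / om) ^ b)) < 1) :
    ‖g z - g z₀‖ ≤ M * (6 ^ (a + b) * (1 / a + 1 + 1 / b) * ((l / rh z₀) ^ a * (1 / om) ^ b)) := by
  set ρ := rh z₀ with hρ
  have hl0 : 0 < l := h0.trans_le hl
  have hr0 : 0 < rh z := (mul_pos hom hl0).trans_le hz
  set r := rh z with hr
  have hrl : l / r ≤ 1 / om := by
    rw [div_le_div_iff₀ hr0 hom]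
    linarith
  have hom' : (1 : ℝ) ≤ 1 / om := by
    rw [le_div_iff₀ hom]; linarith
  have homb : (1 : ℝ) ≤ (1 / om) ^ b := Real.one_le_rpow hom' hb.le
  have hlρ : 1 ≤ l / ρ := by rw [le_div_iff₀ h0]; linarith
  have hlρa : 0 < (l / ρ) ^ a := by positivity
  -- general comparison : x with D ≤ 6 l, rh x ≥ r₁
  have six : ∀ r₁ : ℝ, 0 < r₁ → (6 * l / ρ) ^ a * (6 * l / r₁) ^ b =
      6 ^ (a + b) * ((l / ρ) ^ a * (l / r₁) ^ b) := by
    intro r₁ hr₁
    rw [mul_div_assoc, mul_div_assoc, Real.mul_rpow (by norm_num) (by positivity),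
      Real.mul_rpow (by norm_num) (by positivity), Real.rpow_add (by norm_num)]
    ring
  have hDpos : ∀ x, 0 < rh x → 0 ≤ Dd z₀ x := fun x hx => by
    unfold Dd
    have := norm_nonneg (x - z₀)
    linarith
  have key : ∀ x, ∀ r₁ : ℝ, 0 < r₁ → r₁ ≤ rh x → ‖x - z₀‖ ≤ 2 * l → om * l ≤ r₁ →
      ‖fderiv ℂ g x‖ ≤ M * (6 ^ (a + b) * ((l / ρ) ^ a * (l / r₁) ^ b)) / rh x := by
    intro x r₁ hr₁ hrx hx h4
    have hx0 := hr₁.trans_le hrx
    have hD6 : Dd z₀ x ≤ 6 * l := by
      unfold Dd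
      have := rh_lip x z₀
      linarith
    have h5 := pen_mono (ρ := ρ) ha hb h0 (hDpos x hx0) hD6 hr₁ hrx
    rw [six r₁ hr₁] at h5
    have h6 := (hG x hx0 hx).trans (mul_le_mul_of_nonneg_left h5 hM)
    refine grad_of hx0 (lt_of_le_of_lt ?_ hs) h6
    apply mul_le_mul_of_nonneg_left _ hM
    apply mul_le_mul_of_nonneg_left _ (by positivity)
    apply mul_le_mul_of_nonneg_left _ hlρa.le
    apply Real.rpow_le_rpow (by positivity) _ hb.le
    rw [div_le_div_iff₀ hr₁ hom]
    linarith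
  -- up
  have hup : ‖g (up z₀ l) - g z₀‖ ≤ M * 2 ^ (a + b) * ((ρ + l) / ρ) ^ a / a := by
    set B : ℝ → ℝ := fun s => M * 2 ^ (a + b) * ((ρ + s) / ρ) ^ a / a with hB
    set B' : ℝ → ℝ := fun s => M * 2 ^ (a + b) * (((ρ + s) / ρ) ^ a / (ρ + s)) with hB'
    have hder : ∀ s ∈ Icc (0 : ℝ) l, HasDerivAt B (B' s) s := by
      intro s hs'
      have hs0 : 0 < ρ + s := by linarith [hs'.1]
      have h1 : HasDerivAt (fun s : ℝ => (ρ + s) / ρ) (1 / ρ) s :=
        ((hasDerivAt_id s).const_add ρ).div_const ρ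
      have h2 := h1.rpow_const (p := a) (Or.inl (by positivity : (ρ + s) / ρ ≠ 0))
      have h3 := (h2.const_mul (M * 2 ^ (a + b))).div_const a
      refine h3.congr_deriv ?_
      rw [hB']
      simp only
      rw [Real.rpow_sub_one (by positivity : (ρ + s) / ρ ≠ 0)]
      field_simp
    have hmain := image_norm_le_of_norm_deriv_right_le_deriv_boundary'
      (f := fun s : ℝ => g (z₀ + s • vv) - g z₀) (a := 0) (b := l)
      (f' := fun s => fderiv ℂ g (z₀ + s • vv) vv) (B := B) (B' := B') ?_ ?_ ?_ ?_ ?_ ?_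
    · have := hmain (right_mem_Icc.2 hl0.le)
      simpa [up] using this
    · intro s hs'
      have hx := hdf (up z₀ s) (by rw [rh_up]; linarith [hs'.1]) (by
        rw [norm_up_sub _ hs'.1]; linarith [hs'.2])
      exact ((deriv_line hx).sub_const _).continuousAt.continuousWithinAt
    · intro s hs'
      have hx := hdf (up z₀ s) (by rw [rh_up]; linarith [hs'.1]) (by
        rw [norm_up_sub _ hs'.1]; linarith [hs'.2])
      exact ((deriv_line hx).sub_const _).hasDerivWithinAt
    · simp only [zero_smul, add_zero, sub_self, norm_zero]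
      rw [hB]
      positivity
    · intro s hs'
      exact (hder s hs').continuousAt.continuousWithinAt
    · intro s hs'
      exact (hder s (Ico_subset_Icc_self hs')).hasDerivWithinAt
    · intro s hs'
      have hs0 : 0 < ρ + s := by linarith [hs'.1]
      have hrh : rh (up z₀ s) = ρ + s := rh_up _ _
      have hD : Dd z₀ (up z₀ s) = 2 * (ρ + s) := by
        unfold Dd
        rw [norm_up_sub _ hs'.1, hrh]
        ring
      have e1 := hG (up z₀ s) (by rw [hrh]; exact hs0) (by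
        rw [norm_up_sub _ hs'.1]; linarith [hs'.2])
      rw [hD, hrh] at e1
      have e2 : 2 * (ρ + s) / (ρ + s) = 2 := by field_simp
      rw [e2] at e1
      have e3 : (2 * (ρ + s) / ρ) ^ a * (2 : ℝ) ^ b = 2 ^ (a + b) * ((ρ + s) / ρ) ^ a := by
        rw [mul_div_assoc, Real.mul_rpow (by norm_num) (by positivity), Real.rpow_add (by norm_num)]
        ring
      rw [e3] at e1
      have e4 : (ρ + s) / ρ ≤ 2 * (l / ρ) := by
        rw [← mul_div_assoc]
        apply div_le_div_of_nonneg_right _ h0.le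
        linarith [hs'.2]
      have e5 : ((ρ + s) / ρ) ^ a ≤ 2 ^ a * (l / ρ) ^ a := by
        rw [← Real.mul_rpow (by norm_num) (by positivity)]
        exact Real.rpow_le_rpow (by positivity) e4 ha.le
      have e6 : M * (2 ^ (a + b) * ((ρ + s) / ρ) ^ a) < 1 := by
        refine lt_of_le_of_lt ?_ hs
        apply mul_le_mul_of_nonneg_left _ hM
        calc (2 : ℝ) ^ (a + b) * ((ρ + s) / ρ) ^ a ≤ 2 ^ (a + b) * (2 ^ a * (l / ρ) ^ a) :=
              mul_le_mul_of_nonneg_left e5 (by positivity)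
          _ = (2 ^ (a + b) * 2 ^ a) * (l / ρ) ^ a := by ring
          _ ≤ 6 ^ (a + b) * ((l / ρ) ^ a * (1 / om) ^ b) := by
              rw [← mul_assoc]
              have t1 : (2 : ℝ) ^ (a + b) * 2 ^ a ≤ 6 ^ (a + b) := by
                have t2 : (2 : ℝ) ^ a ≤ 3 ^ (a + b) := by
                  calc (2 : ℝ) ^ a ≤ 3 ^ a := Real.rpow_le_rpow (by norm_num) (by norm_num) ha.le
                    _ ≤ 3 ^ (a + b) := Real.rpow_le_rpow_of_exponent_le (by norm_num) (by linarith)
                calc (2 : ℝ) ^ (a + b) * 2 ^ a ≤ 2 ^ (a + b) * 3 ^ (a + b) :=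
                      mul_le_mul_of_nonneg_left t2 (by positivity)
                  _ = 6 ^ (a + b) := by
                      rw [← Real.mul_rpow (by norm_num) (by norm_num)]; norm_num
              calc (2 : ℝ) ^ (a + b) * 2 ^ a * (l / ρ) ^ a ≤ 6 ^ (a + b) * (l / ρ) ^ a :=
                    mul_le_mul_of_nonneg_right t1 hlρa.le
                _ ≤ 6 ^ (a + b) * (l / ρ) ^ a * (1 / om) ^ b := by
                    have t3 : 0 ≤ (6 : ℝ) ^ (a + b) * (l / ρ) ^ a := by positivity
                    nlinarith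
      have e7 := grad_of (x := up z₀ s) (by rw [hrh]; exact hs0) e6 (by rw [hrh]; exact e1)
      rw [hrh] at e7
      calc ‖fderiv ℂ g (z₀ + s • vv) vv‖ ≤ ‖fderiv ℂ g (z₀ + s • vv)‖ * ‖vv‖ :=
            ContinuousLinearMap.le_opNorm _ _
        _ ≤ M * (2 ^ (a + b) * ((ρ + s) / ρ) ^ a) / (ρ + s) := by
            rw [norm_vv, mul_one]; exact e7
        _ = B' s := by rw [hB']; ring
  -- over
  have hov : ‖g (up z l) - g (up z₀ l)‖ ≤ M * (6 ^ (a + b) * ((l / ρ) ^ a * (1 / om) ^ b)) := by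
    set v := z - z₀ with hv
    set Bc : ℝ := M * (6 ^ (a + b) * ((l / ρ) ^ a * (1 / om) ^ b)) with hBc
    have hrhx : ∀ s ∈ Icc (0 : ℝ) 1, l ≤ rh (up z₀ l + s • v) := by
      intro s hs'
      have q1 : (up z₀ l + s • v).1.im = (1 - s) * z₀.1.im + s * z.1.im - l := by
        rw [Prod.fst_add, Complex.add_im, up_fst_im]
        simp [hv]
        ring
      have q2 : (up z₀ l + s • v).2.im = (1 - s) * z₀.2.im + s * z.2.im + l := by
        rw [Prod.snd_add, Complex.add_im, up_snd_im]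
        simp [hv]
        ring
      have hz01 : 0 < -z₀.1.im := h0.trans_le (min_le_left _ _)
      have hz02 : 0 < z₀.2.im := h0.trans_le (min_le_right _ _)
      have hz1 : 0 < -z.1.im := hr0.trans_le (min_le_left _ _)
      have hz2 : 0 < z.2.im := hr0.trans_le (min_le_right _ _)
      unfold rh
      rw [q1, q2]
      apply le_min
      · nlinarith [mul_nonneg (sub_nonneg.2 hs'.2) hz01.le, mul_nonneg hs'.1 hz1.le]
      · nlinarith [mul_nonneg (sub_nonneg.2 hs'.2) hz02.le, mul_nonneg hs'.1 hz2.le]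
    have hdx : ∀ s ∈ Icc (0 : ℝ) 1, ‖up z₀ l + s • v - z₀‖ ≤ 2 * l := by
      intro s hs'
      have : up z₀ l + s • v - z₀ = (up z₀ l - z₀) + s • v := by abel
      rw [this]
      refine (norm_add_le _ _).trans ?_
      rw [norm_up_sub _ hl0.le, norm_smul, Real.norm_of_nonneg hs'.1]
      nlinarith [hs'.2, norm_nonneg v, hs'.1]
    have hmain := image_norm_le_of_norm_deriv_right_le_deriv_boundary'
      (f := fun s : ℝ => g (up z₀ l + s • v) - g (up z₀ l)) (a := 0) (b := 1)
      (f' := fun s => fderiv ℂ g (up z₀ l + s • v) v) (B := fun s => Bc * s) (B' := fun _ => Bc)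
      ?_ ?_ ?_ ?_ ?_ ?_
    · have h7 := hmain (right_mem_Icc.2 zero_le_one)
      have h8 : up z₀ l + v = up z l := by
        unfold up
        rw [hv]; abel
      simpa [h8] using h7
    · intro s hs'
      have hx := hdf _ (hl0.trans_le (hrhx s hs')) (hdx s hs')
      exact ((deriv_line hx).sub_const _).continuousAt.continuousWithinAt
    · intro s hs'
      have hx := hdf _ (hl0.trans_le (hrhx s (Ico_subset_Icc_self hs'))) (hdx s (Ico_subset_Icc_self hs'))
      exact ((deriv_line hx).sub_const _).hasDerivWithinAt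
    · simp
    · fun_prop
    · intro s _
      have := ((hasDerivAt_id s).const_mul Bc).hasDerivWithinAt (s := Ici s)
      simpa using this
    · intro s hs'
      have h9 := hrhx s (Ico_subset_Icc_self hs')
      have h10 := key _ l hl0 h9 (hdx s (Ico_subset_Icc_self hs')) (by nlinarith)
      rw [div_self hl0.ne', Real.one_rpow, mul_one] at h10
      have h11 : 0 < rh (up z₀ l + s • v) := hl0.trans_le h9
      calc ‖fderiv ℂ g (up z₀ l + s • v) v‖ ≤ ‖fderiv ℂ g (up z₀ l + s • v)‖ * ‖v‖ :=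
            ContinuousLinearMap.le_opNorm _ _
        _ ≤ (M * (6 ^ (a + b) * (l / ρ) ^ a) / rh (up z₀ l + s • v)) * l :=
            mul_le_mul h10 hd (norm_nonneg _) (by positivity)
        _ ≤ M * (6 ^ (a + b) * (l / ρ) ^ a) := by
            rw [div_mul_eq_mul_div, div_le_iff₀ h11]
            exact mul_le_mul_of_nonneg_left h9 (by positivity)
        _ ≤ Bc := by
            rw [hBc]
            apply mul_le_mul_of_nonneg_left _ hM
            apply mul_le_mul_of_nonneg_left _ (by positivity)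
            nlinarith
  -- down
  have hdn : ‖g (up z l) - g z‖ ≤ M * (6 ^ (a + b) * ((l / ρ) ^ a * (1 / om) ^ b)) / b := by
    set Q : ℝ := M * (6 ^ (a + b) * ((l / ρ) ^ a * l ^ b)) with hQ
    set B : ℝ → ℝ := fun s => Q / b * (r ^ (-b) - (r + s) ^ (-b)) with hB
    set B' : ℝ → ℝ := fun s => Q * ((r + s) ^ (-b) / (r + s)) with hB'
    have hder : ∀ s ∈ Icc (0 : ℝ) l, HasDerivAt B (B' s) s := by
      intro s hs'
      have hs0 : 0 < r + s := by linarith [hs'.1]
      have h1 : HasDerivAt (fun s : ℝ => r + s) 1 s := (hasDerivAt_id s).const_add r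
      have h2 := h1.rpow_const (p := -b) (Or.inl hs0.ne')
      have h3 := (h2.const_sub (r ^ (-b))).const_mul (Q / b)
      refine h3.congr_deriv ?_
      rw [hB']
      simp only
      rw [Real.rpow_sub_one hs0.ne']
      field_simp
    have hrhx : ∀ s ∈ Icc (0 : ℝ) l, rh (z + s • vv) = r + s := fun s _ => rh_up z s
    have hdx : ∀ s ∈ Icc (0 : ℝ) l, ‖z + s • vv - z₀‖ ≤ 2 * l := by
      intro s hs'
      have : z + s • vv - z₀ = (up z s - z) + (z - z₀) := by unfold up; abel
      rw [this]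
      refine (norm_add_le _ _).trans ?_
      rw [norm_up_sub _ hs'.1]
      linarith [hs'.2]
    have hmain := image_norm_le_of_norm_deriv_right_le_deriv_boundary'
      (f := fun s : ℝ => g (z + s • vv) - g z) (a := 0) (b := l)
      (f' := fun s => fderiv ℂ g (z + s • vv) vv) (B := B) (B' := B') ?_ ?_ ?_ ?_ ?_ ?_
    · have h7 := hmain (right_mem_Icc.2 hl0.le)
      refine (show ‖g (up z l) - g z‖ ≤ B l from by simpa [up] using h7).trans ?_
      rw [hB]
      simp only
      have h8 : 0 ≤ (r + l) ^ (-b) := by positivity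
      calc Q / b * (r ^ (-b) - (r + l) ^ (-b)) ≤ Q / b * r ^ (-b) := by
            apply mul_le_mul_of_nonneg_left _ (by positivity)
            linarith
        _ = M * (6 ^ (a + b) * ((l / ρ) ^ a * (l / r) ^ b)) / b := by
            rw [hQ, Real.div_rpow hl0.le hr0.le, Real.rpow_neg hr0.le]
            field_simp
        _ ≤ _ := by
            apply div_le_div_of_nonneg_right _ hb.le
            apply mul_le_mul_of_nonneg_left _ hM
            apply mul_le_mul_of_nonneg_left _ (by positivity)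
            apply mul_le_mul_of_nonneg_left _ hlρa.le
            exact Real.rpow_le_rpow (by positivity) hrl hb.le
    · intro s hs'
      have hx := hdf _ (by rw [hrhx s hs']; linarith [hs'.1]) (hdx s hs')
      exact ((deriv_line hx).sub_const _).continuousAt.continuousWithinAt
    · intro s hs'
      have hx := hdf _ (by rw [hrhx s (Ico_subset_Icc_self hs')]; linarith [hs'.1])
        (hdx s (Ico_subset_Icc_self hs'))
      exact ((deriv_line hx).sub_const _).hasDerivWithinAt
    · simp only [zero_smul, add_zero, sub_self, norm_zero]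
      rw [hB]
      simp
    · intro s hs'
      exact (hder s hs').continuousAt.continuousWithinAt
    · intro s hs'
      exact (hder s (Ico_subset_Icc_self hs')).hasDerivWithinAt
    · intro s hs'
      have hs0 : 0 < r + s := by linarith [hs'.1]
      have hI := Ico_subset_Icc_self hs'
      have h10 := key _ (r + s) hs0 (hrhx s hI).ge (hdx s hI) (by linarith [hs'.1])
      rw [hrhx s hI] at h10
      calc ‖fderiv ℂ g (z + s • vv) vv‖ ≤ ‖fderiv ℂ g (z + s • vv)‖ * ‖vv‖ :=
            ContinuousLinearMap.le_opNorm _ _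
        _ ≤ M * (6 ^ (a + b) * ((l / ρ) ^ a * (l / (r + s)) ^ b)) / (r + s) := by
            rw [norm_vv, mul_one]; exact h10
        _ = B' s := by
            rw [hB', hQ]
            simp only
            rw [Real.div_rpow hl0.le hs0.le, Real.rpow_neg hs0.le]
            field_simp
  -- sum
  have htri : ‖g z - g z₀‖ ≤ ‖g (up z l) - g z‖ + ‖g (up z l) - g (up z₀ l)‖ +
      ‖g (up z₀ l) - g z₀‖ := by
    have : g z - g z₀ = -(g (up z l) - g z) + (g (up z l) - g (up z₀ l)) +
        (g (up z₀ l) - g z₀) := by abel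
    rw [this]
    refine (norm_add_le _ _).trans (add_le_add_left ((norm_add_le _ _).trans ?_) _)
    rw [norm_neg]
  have hup' : M * 2 ^ (a + b) * ((ρ + l) / ρ) ^ a / a ≤
      M * (6 ^ (a + b) * ((l / ρ) ^ a * (1 / om) ^ b)) / a := by
    apply div_le_div_of_nonneg_right _ ha.le
    rw [mul_assoc]
    apply mul_le_mul_of_nonneg_left _ hM
    have e4 : (ρ + l) / ρ ≤ 2 * (l / ρ) := by
      rw [← mul_div_assoc]
      apply div_le_div_of_nonneg_right _ h0.le
      linarith
    have e5 : ((ρ + l) / ρ) ^ a ≤ 2 ^ a * (l / ρ) ^ a := by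
      rw [← Real.mul_rpow (by norm_num) (by positivity)]
      exact Real.rpow_le_rpow (by positivity) e4 ha.le
    have t2 : (2 : ℝ) ^ a ≤ 3 ^ (a + b) := by
      calc (2 : ℝ) ^ a ≤ 3 ^ a := Real.rpow_le_rpow (by norm_num) (by norm_num) ha.le
        _ ≤ 3 ^ (a + b) := Real.rpow_le_rpow_of_exponent_le (by norm_num) (by linarith)
    have t1 : (2 : ℝ) ^ (a + b) * 2 ^ a ≤ 6 ^ (a + b) := by
      calc (2 : ℝ) ^ (a + b) * 2 ^ a ≤ 2 ^ (a + b) * 3 ^ (a + b) :=
            mul_le_mul_of_nonneg_left t2 (by positivity)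
        _ = 6 ^ (a + b) := by
            rw [← Real.mul_rpow (by norm_num) (by norm_num)]; norm_num
    calc (2 : ℝ) ^ (a + b) * ((ρ + l) / ρ) ^ a ≤ 2 ^ (a + b) * (2 ^ a * (l / ρ) ^ a) :=
          mul_le_mul_of_nonneg_left e5 (by positivity)
      _ = (2 ^ (a + b) * 2 ^ a) * (l / ρ) ^ a := by ring
      _ ≤ 6 ^ (a + b) * (l / ρ) ^ a := mul_le_mul_of_nonneg_right t1 hlρa.le
      _ ≤ 6 ^ (a + b) * (l / ρ) ^ a * (1 / om) ^ b := by
          have t3 : 0 ≤ (6 : ℝ) ^ (a + b) * (l / ρ) ^ a := by positivity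
          nlinarith
      _ = _ := by ring
  calc ‖g z - g z₀‖ ≤ _ := htri
    _ ≤ M * (6 ^ (a + b) * ((l / ρ) ^ a * (1 / om) ^ b)) / b +
        M * (6 ^ (a + b) * ((l / ρ) ^ a * (1 / om) ^ b)) +
        M * (6 ^ (a + b) * ((l / ρ) ^ a * (1 / om) ^ b)) / a :=
      add_le_add (add_le_add hdn hov) (hup.trans hup')
    _ = _ := by ring

end Vale.Agent.P097.H740.TN
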