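import Vale.Agent.P097.H740.TN1

/-! # P097 / row A5.T-NORM, part 2: path integral of the growth bound (G), ANY depth function -/

open Complex Metric Filter Topology Set

namespace Vale.Agent.P097.H740.TN

variable {E : Type*} [NormedAddCommGroup E] [NormedSpace ℂ E]

/-- a depth function with a lifting direction -/
structure Dep (rh : ℂ × ℂ → ℝ) (v₀ : ℂ × ℂ) (Kp : ℝ) : Prop where
  K1 : 1 ≤ Kp
  v1 : ‖v₀‖ ≤ 1
  up : ∀ (z : ℂ × ℂ) (s : ℝ), 0 ≤ s → rh (z + s • v₀) = rh z + s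
  lip : ∀ x y : ℂ × ℂ, rh x ≤ rh y + Kp * ‖x - y‖

/-- the distance of two windows -/
noncomputable def Dg (rh : ℂ × ℂ → ℝ) (z₀ z : ℂ × ℂ) : ℝ := ‖z - z₀‖ + rh z₀ + rh z

theorem grad_of' {g : ℂ × ℂ → E} {x : ℂ × ℂ} {r B : ℝ} (hx : 0 < r) (hB : B < 1)
    (h : min 1 (r * ‖fderiv ℂ g x‖) ≤ B) : ‖fderiv ℂ g x‖ ≤ B / r := by
  rw [le_div_iff₀ hx, mul_comm]
  rcases min_le_iff.1 h with h1 | h1
  · linarith
  · exact h1

/-- **TN1 (path row), any depth function** -/
theorem path_gen {rh : ℂ × ℂ → ℝ} {v₀ : ℂ × ℂ} {Kp : ℝ} (dp : Dep rh v₀ Kp)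
    {g : ℂ × ℂ → E} {z₀ z : ℂ × ℂ} {a b l om M : ℝ} (ha : 0 < a) (hb : 0 < b)
    (hM : 0 ≤ M) (h0 : 0 < rh z₀) (hl : rh z₀ ≤ l) (hom : 0 < om) (hom1 : om ≤ 1)
    (hz : om * l ≤ rh z) (hd : ‖z - z₀‖ ≤ l)
    (hdf : ∀ x, 0 < rh x → ‖x - z₀‖ ≤ (2 + Kp) * l → DifferentiableAt ℂ g x)
    (hG : ∀ x, 0 < rh x → ‖x - z₀‖ ≤ (2 + Kp) * l → min 1 (rh x * ‖fderiv ℂ g x‖) ≤
      M * ((Dg rh z₀ x / rh z₀) ^ a * (Dg rh z₀ x / rh x) ^ b))
    (hs : M * ((5 + 3 * Kp) ^ (a + b) * ((l / rh z₀) ^ a * (1 / om) ^ b)) < 1) :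
    ‖g z - g z₀‖ ≤ M * ((5 + 3 * Kp) ^ (a + b) * (1 / a + 1 + 1 / b) *
      ((l / rh z₀) ^ a * (1 / om) ^ b)) := by
  set ρ := rh z₀ with hρ
  have hK1 := dp.K1
  set N : ℝ := 5 + 3 * Kp with hN
  have hN8 : 8 ≤ N := by rw [hN]; linarith
  have hN0 : 0 < N := by linarith
  have hl0 : 0 < l := h0.trans_le hl
  have hr0 : 0 < rh z := (mul_pos hom hl0).trans_le hz
  set r := rh z with hr
  set T : ℝ := (1 + Kp) * l with hT
  have hT0 : 0 < T := by positivity
  have hTl : l ≤ T := by rw [hT]; nlinarith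
  have hrl : l / r ≤ 1 / om := by
    rw [div_le_div_iff₀ hr0 hom]
    linarith
  have hom' : (1 : ℝ) ≤ 1 / om := by
    rw [le_div_iff₀ hom]; linarith
  have homb : (1 : ℝ) ≤ (1 / om) ^ b := Real.one_le_rpow hom' hb.le
  have hlρ : 1 ≤ l / ρ := by rw [le_div_iff₀ h0]; linarith
  have hlρa : 0 < (l / ρ) ^ a := by positivity
  have hNl : 0 ≤ N * l := by positivity
  -- general comparison
  have six : ∀ r₁ : ℝ, 0 < r₁ → (N * l / ρ) ^ a * (N * l / r₁) ^ b =
      N ^ (a + b) * ((l / ρ) ^ a * (l / r₁) ^ b) := by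
    intro r₁ hr₁
    rw [mul_div_assoc, mul_div_assoc, Real.mul_rpow hN0.le (by positivity),
      Real.mul_rpow hN0.le (by positivity), Real.rpow_add hN0]
    ring
  have hDpos : ∀ x, 0 < rh x → 0 ≤ Dg rh z₀ x := fun x hx => by
    unfold Dg
    have := norm_nonneg (x - z₀)
    linarith
  have key : ∀ x, ∀ r₁ : ℝ, 0 < r₁ → r₁ ≤ rh x → ‖x - z₀‖ ≤ (2 + Kp) * l →
      rh x ≤ (2 + 2 * Kp) * l → om * l ≤ r₁ →
      ‖fderiv ℂ g x‖ ≤ M * (N ^ (a + b) * ((l / ρ) ^ a * (l / r₁) ^ b)) / rh x := by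
    intro x r₁ hr₁ hrx hx hx2 h4
    have hx0 := hr₁.trans_le hrx
    have hD6 : Dg rh z₀ x ≤ N * l := by
      unfold Dg
      rw [hN]
      nlinarith
    have h5 := pen_mono (ρ := ρ) ha hb h0 (hDpos x hx0) hD6 hr₁ hrx
    rw [six r₁ hr₁] at h5
    have h6 := (hG x hx0 hx).trans (mul_le_mul_of_nonneg_left h5 hM)
    refine grad_of' hx0 (lt_of_le_of_lt ?_ hs) h6
    apply mul_le_mul_of_nonneg_left _ hM
    apply mul_le_mul_of_nonneg_left _ (by positivity)
    apply mul_le_mul_of_nonneg_left _ hlρa.le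
    apply Real.rpow_le_rpow (by positivity) _ hb.le
    rw [div_le_div_iff₀ hr₁ hom]
    linarith
  have nsv : ∀ s : ℝ, 0 ≤ s → ‖s • v₀‖ ≤ s := by
    intro s hs'
    rw [norm_smul, Real.norm_of_nonneg hs']
    nlinarith [dp.v1]
  -- the upward constant
  have hconst : ∀ X : ℝ, 0 ≤ X → X ≤ (2 + Kp) * (l / ρ) →
      (2 : ℝ) ^ (a + b) * X ^ a ≤ N ^ (a + b) * ((l / ρ) ^ a * (1 / om) ^ b) := by
    intro X hX0 hX
    have e5 : X ^ a ≤ (2 + Kp) ^ a * (l / ρ) ^ a := by
      rw [← Real.mul_rpow (by linarith) (by positivity)]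
      exact Real.rpow_le_rpow hX0 hX ha.le
    have t1 : (2 : ℝ) ^ (a + b) * (2 + Kp) ^ a ≤ N ^ (a + b) := by
      rw [Real.rpow_add (by norm_num), Real.rpow_add hN0]
      have t2 : (2 : ℝ) ^ a * (2 + Kp) ^ a ≤ N ^ a := by
        rw [← Real.mul_rpow (by norm_num) (by linarith)]
        apply Real.rpow_le_rpow (by nlinarith) _ ha.le
        rw [hN]; linarith
      have t3 : (2 : ℝ) ^ b ≤ N ^ b := Real.rpow_le_rpow (by norm_num) (by linarith) hb.le
      calc (2 : ℝ) ^ a * 2 ^ b * (2 + Kp) ^ a = ((2 : ℝ) ^ a * (2 + Kp) ^ a) * 2 ^ b := by ring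
        _ ≤ N ^ a * N ^ b := mul_le_mul t2 t3 (by positivity) (by positivity)
    calc (2 : ℝ) ^ (a + b) * X ^ a ≤ 2 ^ (a + b) * ((2 + Kp) ^ a * (l / ρ) ^ a) :=
          mul_le_mul_of_nonneg_left e5 (by positivity)
      _ = (2 ^ (a + b) * (2 + Kp) ^ a) * (l / ρ) ^ a := by ring
      _ ≤ N ^ (a + b) * (l / ρ) ^ a := mul_le_mul_of_nonneg_right t1 hlρa.le
      _ ≤ N ^ (a + b) * (l / ρ) ^ a * (1 / om) ^ b := by
          have t3 : 0 ≤ N ^ (a + b) * (l / ρ) ^ a := by positivity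
          nlinarith
      _ = _ := by ring
  have hXb : ∀ s : ℝ, s ≤ T → (ρ + s) / ρ ≤ (2 + Kp) * (l / ρ) := by
    intro s hs'
    rw [← mul_div_assoc]
    apply div_le_div_of_nonneg_right _ h0.le
    rw [hT] at hs'
    linarith
  -- up
  have hup : ‖g (z₀ + T • v₀) - g z₀‖ ≤ M * 2 ^ (a + b) * ((ρ + T) / ρ) ^ a / a := by
    set B : ℝ → ℝ := fun s => M * 2 ^ (a + b) * ((ρ + s) / ρ) ^ a / a with hB
    set B' : ℝ → ℝ := fun s => M * 2 ^ (a + b) * (((ρ + s) / ρ) ^ a / (ρ + s)) with hB'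
    have hder : ∀ s ∈ Icc (0 : ℝ) T, HasDerivAt B (B' s) s := by
      intro s hs'
      have hs0 : 0 < ρ + s := by linarith [hs'.1]
      have h1 : HasDerivAt (fun s : ℝ => (ρ + s) / ρ) (1 / ρ) s :=
        ((hasDerivAt_id s).const_add ρ).div_const ρ
      have h2 := h1.rpow_const (p := a) (Or.inl (by positivity : (ρ + s) / ρ ≠ 0))
      have h3 := (h2.const_mul (M * 2 ^ (a + b))).div_const a
      refine h3.congr_deriv ?_
      rw [hB']
      simp only
      rw [Real.rpow_sub_one (by positivity : (ρ + s) / ρ ≠ 0)]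
      field_simp
    have hdist : ∀ s ∈ Icc (0 : ℝ) T, ‖z₀ + s • v₀ - z₀‖ ≤ s := by
      intro s hs'
      rw [add_sub_cancel_left]
      exact nsv s hs'.1
    have hdist2 : ∀ s ∈ Icc (0 : ℝ) T, ‖z₀ + s • v₀ - z₀‖ ≤ (2 + Kp) * l := by
      intro s hs'
      refine (hdist s hs').trans (hs'.2.trans ?_)
      rw [hT]; linarith
    have hpos : ∀ s ∈ Icc (0 : ℝ) T, 0 < rh (z₀ + s • v₀) := by
      intro s hs'
      rw [dp.up _ _ hs'.1]; linarith [hs'.1]
    have hmain := image_norm_le_of_norm_deriv_right_le_deriv_boundary'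
      (f := fun s : ℝ => g (z₀ + s • v₀) - g z₀) (a := 0) (b := T)
      (f' := fun s => fderiv ℂ g (z₀ + s • v₀) v₀) (B := B) (B' := B') ?_ ?_ ?_ ?_ ?_ ?_
    · exact hmain (right_mem_Icc.2 hT0.le)
    · intro s hs'
      have hx := hdf _ (hpos s hs') (hdist2 s hs')
      exact ((deriv_line hx).sub_const _).continuousAt.continuousWithinAt
    · intro s hs'
      have hI := Ico_subset_Icc_self hs'
      have hx := hdf _ (hpos s hI) (hdist2 s hI)
      exact ((deriv_line hx).sub_const _).hasDerivWithinAt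
    · simp only [zero_smul, add_zero, sub_self, norm_zero]
      rw [hB]
      positivity
    · intro s hs'
      exact (hder s hs').continuousAt.continuousWithinAt
    · intro s hs'
      exact (hder s (Ico_subset_Icc_self hs')).hasDerivWithinAt
    · intro s hs'
      have hI := Ico_subset_Icc_self hs'
      have hs0 : 0 < ρ + s := by linarith [hs'.1]
      have hrh : rh (z₀ + s • v₀) = ρ + s := dp.up _ _ hs'.1
      have hD : Dg rh z₀ (z₀ + s • v₀) ≤ 2 * (ρ + s) := by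
        unfold Dg
        rw [hrh]
        have := hdist s hI
        linarith
      have e0 := hG _ (hpos s hI) (hdist2 s hI)
      have e1 := e0.trans (mul_le_mul_of_nonneg_left
        (pen_mono (ρ := ρ) ha hb h0 (hDpos _ (hpos s hI)) hD (hpos s hI) le_rfl) hM)
      rw [hrh] at e1
      have e2 : 2 * (ρ + s) / (ρ + s) = 2 := by field_simp
      rw [e2] at e1
      have e3 : (2 * (ρ + s) / ρ) ^ a * (2 : ℝ) ^ b = 2 ^ (a + b) * ((ρ + s) / ρ) ^ a := by
        rw [mul_div_assoc, Real.mul_rpow (by norm_num) (by positivity), Real.rpow_add (by norm_num)]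
        ring
      rw [e3] at e1
      have e6 : M * (2 ^ (a + b) * ((ρ + s) / ρ) ^ a) < 1 := by
        refine lt_of_le_of_lt ?_ hs
        exact mul_le_mul_of_nonneg_left (hconst _ (by positivity) (hXb s hI.2)) hM
      have e7 := grad_of' hs0 e6 e1
      calc ‖fderiv ℂ g (z₀ + s • v₀) v₀‖ ≤ ‖fderiv ℂ g (z₀ + s • v₀)‖ * ‖v₀‖ :=
            ContinuousLinearMap.le_opNorm _ _
        _ ≤ (M * (2 ^ (a + b) * ((ρ + s) / ρ) ^ a) / (ρ + s)) * 1 :=
            mul_le_mul e7 dp.v1 (norm_nonneg _) (by positivity)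
        _ = B' s := by rw [hB']; ring
  -- over
  have hov : ‖g (z + T • v₀) - g (z₀ + T • v₀)‖ ≤
      M * (N ^ (a + b) * ((l / ρ) ^ a * (1 / om) ^ b)) := by
    set v := z - z₀ with hv
    set Bc : ℝ := M * (N ^ (a + b) * ((l / ρ) ^ a * (1 / om) ^ b)) with hBc
    have hsv : ∀ s ∈ Icc (0 : ℝ) 1, ‖s • v‖ ≤ l := by
      intro s hs'
      rw [norm_smul, Real.norm_of_nonneg hs'.1]
      nlinarith [hs'.2, norm_nonneg v, hs'.1]
    have hrhx : ∀ s ∈ Icc (0 : ℝ) 1, l ≤ rh (z₀ + T • v₀ + s • v) := by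
      intro s hs'
      have h1 := dp.lip (z₀ + T • v₀) (z₀ + T • v₀ + s • v)
      rw [dp.up _ _ hT0.le] at h1
      have h2 : z₀ + T • v₀ - (z₀ + T • v₀ + s • v) = -(s • v) := by abel
      rw [h2, norm_neg] at h1
      have h3 := mul_le_mul_of_nonneg_left (hsv s hs') (by linarith : (0 : ℝ) ≤ Kp)
      have h4 : T = l + Kp * l := by rw [hT]; ring
      linarith
    have hrhu : ∀ s ∈ Icc (0 : ℝ) 1, rh (z₀ + T • v₀ + s • v) ≤ (2 + 2 * Kp) * l := by
      intro s hs'
      have h1 := dp.lip (z₀ + T • v₀ + s • v) (z₀ + T • v₀)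
      rw [dp.up _ _ hT0.le] at h1
      have h2 : z₀ + T • v₀ + s • v - (z₀ + T • v₀) = s • v := by abel
      rw [h2] at h1
      have h3 := mul_le_mul_of_nonneg_left (hsv s hs') (by linarith : (0 : ℝ) ≤ Kp)
      have h4 : T = l + Kp * l := by rw [hT]; ring
      linarith
    have hdx : ∀ s ∈ Icc (0 : ℝ) 1, ‖z₀ + T • v₀ + s • v - z₀‖ ≤ (2 + Kp) * l := by
      intro s hs'
      have : z₀ + T • v₀ + s • v - z₀ = T • v₀ + s • v := by abel
      rw [this]
      refine (norm_add_le _ _).trans ?_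
      have h3 := nsv T hT0.le
      have h4 := hsv s hs'
      rw [hT] at h3 ⊢
      linarith
    have hmain := image_norm_le_of_norm_deriv_right_le_deriv_boundary'
      (f := fun s : ℝ => g (z₀ + T • v₀ + s • v) - g (z₀ + T • v₀)) (a := 0) (b := 1)
      (f' := fun s => fderiv ℂ g (z₀ + T • v₀ + s • v) v) (B := fun s => Bc * s)
      (B' := fun _ => Bc) ?_ ?_ ?_ ?_ ?_ ?_
    · have h7 := hmain (right_mem_Icc.2 zero_le_one)
      have h8 : z₀ + T • v₀ + v = z + T • v₀ := by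
        rw [hv]; abel
      simpa [h8] using h7
    · intro s hs'
      have hx := hdf _ (hl0.trans_le (hrhx s hs')) (hdx s hs')
      exact ((deriv_line hx).sub_const _).continuousAt.continuousWithinAt
    · intro s hs'
      have hx := hdf _ (hl0.trans_le (hrhx s (Ico_subset_Icc_self hs'))) (hdx s (Ico_subset_Icc_self hs'))
      exact ((deriv_line hx).sub_const _).hasDerivWithinAt
    · simp
    · fun_prop
    · intro s _
      have := ((hasDerivAt_id s).const_mul Bc).hasDerivWithinAt (s := Ici s)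
      simpa using this
    · intro s hs'
      have hI := Ico_subset_Icc_self hs'
      have h9 := hrhx s hI
      have h10 := key _ l hl0 h9 (hdx s hI) (hrhu s hI) (by nlinarith)
      rw [div_self hl0.ne', Real.one_rpow, mul_one] at h10
      have h11 : 0 < rh (z₀ + T • v₀ + s • v) := hl0.trans_le h9
      calc ‖fderiv ℂ g (z₀ + T • v₀ + s • v) v‖ ≤ ‖fderiv ℂ g (z₀ + T • v₀ + s • v)‖ * ‖v‖ :=
            ContinuousLinearMap.le_opNorm _ _
        _ ≤ (M * (N ^ (a + b) * (l / ρ) ^ a) / rh (z₀ + T • v₀ + s • v)) * l :=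
            mul_le_mul h10 hd (norm_nonneg _) (by positivity)
        _ ≤ M * (N ^ (a + b) * (l / ρ) ^ a) := by
            rw [div_mul_eq_mul_div, div_le_iff₀ h11]
            exact mul_le_mul_of_nonneg_left h9 (by positivity)
        _ ≤ Bc := by
            rw [hBc]
            apply mul_le_mul_of_nonneg_left _ hM
            apply mul_le_mul_of_nonneg_left _ (by positivity)
            nlinarith
  -- down
  have hdn : ‖g (z + T • v₀) - g z‖ ≤ M * (N ^ (a + b) * ((l / ρ) ^ a * (1 / om) ^ b)) / b := by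
    set Q : ℝ := M * (N ^ (a + b) * ((l / ρ) ^ a * l ^ b)) with hQ
    set B : ℝ → ℝ := fun s => Q / b * (r ^ (-b) - (r + s) ^ (-b)) with hB
    set B' : ℝ → ℝ := fun s => Q * ((r + s) ^ (-b) / (r + s)) with hB'
    have hder : ∀ s ∈ Icc (0 : ℝ) T, HasDerivAt B (B' s) s := by
      intro s hs'
      have hs0 : 0 < r + s := by linarith [hs'.1]
      have h1 : HasDerivAt (fun s : ℝ => r + s) 1 s := (hasDerivAt_id s).const_add r
      have h2 := h1.rpow_const (p := -b) (Or.inl hs0.ne')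
      have h3 := (h2.const_sub (r ^ (-b))).const_mul (Q / b)
      refine h3.congr_deriv ?_
      rw [hB']
      simp only
      rw [Real.rpow_sub_one hs0.ne']
      field_simp
    have hrK : r ≤ (1 + Kp) * l := by
      have h1 := dp.lip z z₀
      have h2 := mul_le_mul_of_nonneg_left hd (by linarith : (0 : ℝ) ≤ Kp)
      linarith
    have hrhx : ∀ s ∈ Icc (0 : ℝ) T, rh (z + s • v₀) = r + s := fun s hs' => dp.up z s hs'.1
    have hrhu : ∀ s ∈ Icc (0 : ℝ) T, rh (z + s • v₀) ≤ (2 + 2 * Kp) * l := by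
      intro s hs'
      rw [hrhx s hs']
      have h2 := hs'.2
      rw [hT] at h2
      linarith
    have hdx : ∀ s ∈ Icc (0 : ℝ) T, ‖z + s • v₀ - z₀‖ ≤ (2 + Kp) * l := by
      intro s hs'
      have : z + s • v₀ - z₀ = s • v₀ + (z - z₀) := by abel
      rw [this]
      refine (norm_add_le _ _).trans ?_
      have h1 := nsv s hs'.1
      have h2 := hs'.2
      rw [hT] at h2
      linarith
    have hmain := image_norm_le_of_norm_deriv_right_le_deriv_boundary'
      (f := fun s : ℝ => g (z + s • v₀) - g z) (a := 0) (b := T)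
      (f' := fun s => fderiv ℂ g (z + s • v₀) v₀) (B := B) (B' := B') ?_ ?_ ?_ ?_ ?_ ?_
    · have h7 := hmain (right_mem_Icc.2 hT0.le)
      refine h7.trans ?_
      rw [hB]
      simp only
      have h8 : 0 ≤ (r + T) ^ (-b) := by positivity
      calc Q / b * (r ^ (-b) - (r + T) ^ (-b)) ≤ Q / b * r ^ (-b) := by
            apply mul_le_mul_of_nonneg_left _ (by positivity)
            linarith
        _ = M * (N ^ (a + b) * ((l / ρ) ^ a * (l / r) ^ b)) / b := by
            rw [hQ, Real.div_rpow hl0.le hr0.le, Real.rpow_neg hr0.le]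
            field_simp
        _ ≤ _ := by
            apply div_le_div_of_nonneg_right _ hb.le
            apply mul_le_mul_of_nonneg_left _ hM
            apply mul_le_mul_of_nonneg_left _ (by positivity)
            apply mul_le_mul_of_nonneg_left _ hlρa.le
            exact Real.rpow_le_rpow (by positivity) hrl hb.le
    · intro s hs'
      have hx := hdf _ (by rw [hrhx s hs']; linarith [hs'.1]) (hdx s hs')
      exact ((deriv_line hx).sub_const _).continuousAt.continuousWithinAt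
    · intro s hs'
      have hI := Ico_subset_Icc_self hs'
      have hx := hdf _ (by rw [hrhx s hI]; linarith [hs'.1]) (hdx s hI)
      exact ((deriv_line hx).sub_const _).hasDerivWithinAt
    · simp only [zero_smul, add_zero, sub_self, norm_zero]
      rw [hB]
      simp
    · intro s hs'
      exact (hder s hs').continuousAt.continuousWithinAt
    · intro s hs'
      exact (hder s (Ico_subset_Icc_self hs')).hasDerivWithinAt
    · intro s hs'
      have hs0 : 0 < r + s := by linarith [hs'.1]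
      have hI := Ico_subset_Icc_self hs'
      have h10 := key _ (r + s) hs0 (hrhx s hI).ge (hdx s hI) (hrhu s hI) (by linarith [hs'.1])
      rw [hrhx s hI] at h10
      calc ‖fderiv ℂ g (z + s • v₀) v₀‖ ≤ ‖fderiv ℂ g (z + s • v₀)‖ * ‖v₀‖ :=
            ContinuousLinearMap.le_opNorm _ _
        _ ≤ (M * (N ^ (a + b) * ((l / ρ) ^ a * (l / (r + s)) ^ b)) / (r + s)) * 1 :=
            mul_le_mul h10 dp.v1 (norm_nonneg _) (by positivity)
        _ = B' s := by
            rw [hB', hQ]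
            simp only
            rw [Real.div_rpow hl0.le hs0.le, Real.rpow_neg hs0.le]
            field_simp
  -- sum
  have htri : ‖g z - g z₀‖ ≤ ‖g (z + T • v₀) - g z‖ + ‖g (z + T • v₀) - g (z₀ + T • v₀)‖ +
      ‖g (z₀ + T • v₀) - g z₀‖ := by
    have : g z - g z₀ = -(g (z + T • v₀) - g z) + (g (z + T • v₀) - g (z₀ + T • v₀)) +
        (g (z₀ + T • v₀) - g z₀) := by abel
    rw [this]
    refine (norm_add_le _ _).trans (add_le_add_left ((norm_add_le _ _).trans ?_) _)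
    rw [norm_neg]
  have hup' : M * 2 ^ (a + b) * ((ρ + T) / ρ) ^ a / a ≤
      M * (N ^ (a + b) * ((l / ρ) ^ a * (1 / om) ^ b)) / a := by
    apply div_le_div_of_nonneg_right _ ha.le
    rw [mul_assoc]
    exact mul_le_mul_of_nonneg_left (hconst _ (by positivity) (hXb T le_rfl)) hM
  calc ‖g z - g z₀‖ ≤ _ := htri
    _ ≤ M * (N ^ (a + b) * ((l / ρ) ^ a * (1 / om) ^ b)) / b +
        M * (N ^ (a + b) * ((l / ρ) ^ a * (1 / om) ^ b)) +
        M * (N ^ (a + b) * ((l / ρ) ^ a * (1 / om) ^ b)) / a :=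
      add_le_add (add_le_add hdn hov) (hup.trans hup')
    _ = _ := by ring

/-- the depth under a Lipschitz graph `Im t < h w` -/
noncomputable def gd (h : ℂ → ℝ) (z : ℂ × ℂ) : ℝ := h z.2 - z.1.im

theorem dep_graph {h : ℂ → ℝ} {K : ℝ} (hK : 0 ≤ K) (hh : ∀ w w' : ℂ, |h w - h w'| ≤ K * ‖w - w'‖) :
    Dep (gd h) (-I, 0) (1 + K) where
  K1 := by linarith
  v1 := by
    rw [Prod.norm_def]
    simp
  up z s _ := by
    simp [gd]
    ring
  lip x y := by
    have h1 := (abs_le.1 (hh x.2 y.2)).2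
    have h2 : |x.1.im - y.1.im| ≤ ‖x - y‖ := by
      rw [← Complex.sub_im]
      exact (Complex.abs_im_le_norm _).trans (norm_fst_le (x - y))
    have h3 : ‖x.2 - y.2‖ ≤ ‖x - y‖ := norm_snd_le (x - y)
    have h4 := (abs_le.1 h2).1
    have h5 := mul_le_mul_of_nonneg_left h3 hK
    unfold gd
    linarith

theorem dep_quad : Dep rh vv 1 where
  K1 := le_rfl
  v1 := norm_vv.le
  up z s _ := rh_up z s
  lip x y := by
    rw [one_mul]
    exact rh_lip x y

end Vale.Agent.P097.H740.TN
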