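import Vale.Agent.P097.H740.TN2

/-! # P097 / row A5.T-NORM, part 3: path integral of the growth bound (G) on a set `U` -/

open Complex Metric Filter Topology Set

namespace Vale.Agent.P097.H740.TN

variable {E : Type*} [NormedAddCommGroup E] [NormedSpace ℂ E]

/-- hypotheses of the path lemma -/
structure Pth (rh : ℂ × ℂ → ℝ) (v₀ : ℂ × ℂ) (Kp : ℝ) (U : Set (ℂ × ℂ)) (g : ℂ × ℂ → E)
    (z₀ z : ℂ × ℂ) (a b l om M ρ T C₁ CH : ℝ) : Prop where
  dp : Dep rh v₀ Kp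
  ha : 0 < a
  hb : 0 < b
  hM : 0 ≤ M
  hρ0 : 0 < ρ
  hρl : ρ ≤ l
  hC₁ : 1 ≤ C₁
  hρr : ρ ≤ C₁ * rh z₀
  hl : rh z₀ ≤ l
  hom : 0 < om
  hom1 : om ≤ 1
  hz : om * l ≤ rh z
  hd : ‖z - z₀‖ ≤ l
  hT1 : (1 + Kp) * l ≤ T
  hT2 : T ≤ CH * l
  hU0 : ∀ s ∈ Icc (0 : ℝ) T, z₀ + s • v₀ ∈ U
  hUz : ∀ s ∈ Icc (0 : ℝ) T, z + s • v₀ ∈ U
  hUx : ∀ s ∈ Icc (0 : ℝ) 1, z₀ + T • v₀ + s • (z - z₀) ∈ U
  hdf : ∀ x ∈ U, DifferentiableAt ℂ g x
  hG : ∀ x ∈ U, min 1 (rh x * ‖fderiv ℂ g x‖) ≤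
      M * (((‖x - z₀‖ + ρ + rh x) / ρ) ^ a * ((‖x - z₀‖ + ρ + rh x) / rh x) ^ b)
  hs : M * ((3 * C₁ * (1 + CH)) ^ (a + b) * ((l / ρ) ^ a * (1 / om) ^ b)) < 1

variable {rh : ℂ × ℂ → ℝ} {v₀ : ℂ × ℂ} {Kp : ℝ} {U : Set (ℂ × ℂ)} {g : ℂ × ℂ → E}
  {z₀ z : ℂ × ℂ} {a b l om M ρ T C₁ CH : ℝ}

/-- elementary consequences -/
structure Bas (rh : ℂ × ℂ → ℝ) (v₀ : ℂ × ℂ) (Kp : ℝ)
    (z₀ z : ℂ × ℂ) (a b l om M ρ T C₁ CH N : ℝ) : Prop where
  h0 : 0 < rh z₀
  hl0 : 0 < l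
  hCH : 1 + Kp ≤ CH
  hC1H : 3 * (1 + CH) ≤ N
  hN9 : 9 ≤ N
  hr0 : 0 < rh z
  hT0 : 0 < T
  hrl : l / rh z ≤ 1 / om
  homb : (1 : ℝ) ≤ (1 / om) ^ b
  hlρa : 0 < (l / ρ) ^ a
  nsv : ∀ s : ℝ, 0 ≤ s → ‖s • v₀‖ ≤ s
  hconst : ∀ X : ℝ, 0 ≤ X → X ≤ (1 + CH) * (l / ρ) →
      (1 + C₁) ^ (a + b) * X ^ a ≤ N ^ (a + b) * ((l / ρ) ^ a * (1 / om) ^ b)
  hXb : ∀ s : ℝ, s ≤ T → (rh z₀ + s) / ρ ≤ (1 + CH) * (l / ρ)

theorem Pth.bas (P : Pth rh v₀ Kp U g z₀ z a b l om M ρ T C₁ CH) :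
    Bas rh v₀ Kp z₀ z a b l om M ρ T C₁ CH (3 * C₁ * (1 + CH)) := by
  obtain ⟨dp, ha, hb, hM, hρ0, hρl, hC₁, hρr, hl, hom, hom1, hz, hd, hT1, hT2, hU0, hUz, hUx, hdf,
    hG, hs⟩ := P
  have hK1 := dp.K1
  set r₀ := rh z₀ with hr₀
  have h0 : 0 < r₀ := by
    by_contra hcon
    push Not at hcon
    nlinarith
  set N : ℝ := 3 * C₁ * (1 + CH) with hN
  have hl0 : 0 < l := h0.trans_le hl
  have hCH : 1 + Kp ≤ CH := by
    have := hT1.trans hT2
    exact le_of_mul_le_mul_right this hl0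
  have hCH2 : 2 ≤ CH := by linarith
  have hC1H : 3 * (1 + CH) ≤ N := by rw [hN]; nlinarith
  have hN9 : 9 ≤ N := by linarith
  have hN0 : 0 < N := by linarith
  have hr0 : 0 < rh z := (mul_pos hom hl0).trans_le hz
  have hT0 : 0 < T := lt_of_lt_of_le (by positivity) hT1
  have hrl : l / rh z ≤ 1 / om := by
    rw [div_le_div_iff₀ hr0 hom]
    linarith
  have hom' : (1 : ℝ) ≤ 1 / om := by
    rw [le_div_iff₀ hom]; linarith
  have homb : (1 : ℝ) ≤ (1 / om) ^ b := Real.one_le_rpow hom' hb.le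
  have hlρ : 1 ≤ l / ρ := by rw [le_div_iff₀ hρ0]; linarith
  have hlρa : 0 < (l / ρ) ^ a := by positivity
  refine ⟨h0, hl0, hCH, hC1H, hN9, hr0, hT0, hrl, homb, hlρa, ?_, ?_, ?_⟩
  · intro s hs'
    rw [norm_smul, Real.norm_of_nonneg hs']
    nlinarith [dp.v1]
  · intro X hX0 hX
    have e5 : X ^ a ≤ (1 + CH) ^ a * (l / ρ) ^ a := by
      rw [← Real.mul_rpow (by linarith) (by positivity)]
      exact Real.rpow_le_rpow hX0 hX ha.le
    have t1 : (1 + C₁) ^ (a + b) * (1 + CH) ^ a ≤ N ^ (a + b) := by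
      rw [Real.rpow_add (by linarith), Real.rpow_add hN0]
      have t2 : (1 + C₁) ^ a * (1 + CH) ^ a ≤ N ^ a := by
        rw [← Real.mul_rpow (by linarith) (by linarith)]
        apply Real.rpow_le_rpow (by nlinarith) _ ha.le
        rw [hN]; nlinarith
      have t3 : (1 + C₁) ^ b ≤ N ^ b := by
        apply Real.rpow_le_rpow (by linarith) _ hb.le
        rw [hN]; nlinarith
      calc (1 + C₁) ^ a * (1 + C₁) ^ b * (1 + CH) ^ a =
            ((1 + C₁) ^ a * (1 + CH) ^ a) * (1 + C₁) ^ b := by ring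
        _ ≤ N ^ a * N ^ b := mul_le_mul t2 t3 (by positivity) (by positivity)
    calc (1 + C₁) ^ (a + b) * X ^ a ≤ (1 + C₁) ^ (a + b) * ((1 + CH) ^ a * (l / ρ) ^ a) :=
          mul_le_mul_of_nonneg_left e5 (by positivity)
      _ = ((1 + C₁) ^ (a + b) * (1 + CH) ^ a) * (l / ρ) ^ a := by ring
      _ ≤ N ^ (a + b) * (l / ρ) ^ a := mul_le_mul_of_nonneg_right t1 hlρa.le
      _ ≤ N ^ (a + b) * (l / ρ) ^ a * (1 / om) ^ b := by
          have t3 : 0 ≤ N ^ (a + b) * (l / ρ) ^ a := by positivity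
          nlinarith
      _ = _ := by ring
  · intro s hs'
    rw [← mul_div_assoc]
    apply div_le_div_of_nonneg_right _ hρ0.le
    linarith

theorem Pth.key (P : Pth rh v₀ Kp U g z₀ z a b l om M ρ T C₁ CH) {x : ℂ × ℂ} (hxU : x ∈ U)
    {r₁ : ℝ} (hr₁ : 0 < r₁) (hrx : r₁ ≤ rh x) (hx : ‖x - z₀‖ ≤ (1 + CH) * l)
    (hx2 : rh x ≤ 2 * CH * l) (h4 : om * l ≤ r₁) :
    ‖fderiv ℂ g x‖ ≤ M * ((3 * C₁ * (1 + CH)) ^ (a + b) * ((l / ρ) ^ a * (l / r₁) ^ b)) / rh x := by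
  have Q := P.bas
  obtain ⟨h0, hl0, hCH, hC1H, hN9, hr0, hT0, hrl, homb, hlρa, nsv, hconst, hXb⟩ := Q
  obtain ⟨dp, ha, hb, hM, hρ0, hρl, hC₁, hρr, hl, hom, hom1, hz, hd, hT1, hT2, hU0, hUz, hUx, hdf,
    hG, hs⟩ := P
  have hK1 := dp.K1
  set N : ℝ := 3 * C₁ * (1 + CH) with hN
  have hN0 : 0 < N := by linarith
  have six : (N * l / ρ) ^ a * (N * l / r₁) ^ b =
      N ^ (a + b) * ((l / ρ) ^ a * (l / r₁) ^ b) := by
    rw [mul_div_assoc, mul_div_assoc, Real.mul_rpow hN0.le (by positivity),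
      Real.mul_rpow hN0.le (by positivity), Real.rpow_add hN0]
    ring
  have hx0 := hr₁.trans_le hrx
  have hDp : 0 ≤ ‖x - z₀‖ + ρ + rh x := by
    have := norm_nonneg (x - z₀)
    linarith
  have hD6 : ‖x - z₀‖ + ρ + rh x ≤ N * l := by
    have h7 : 3 * (1 + CH) * l ≤ N * l := mul_le_mul_of_nonneg_right hC1H hl0.le
    have h8 : 3 * (1 + CH) * l = (1 + CH) * l + l + (2 * CH * l + l) := by ring
    linarith
  have h5 := pen_mono (ρ := ρ) ha hb hρ0 hDp hD6 hr₁ hrx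
  rw [six] at h5
  have h6 := (hG x hxU).trans (mul_le_mul_of_nonneg_left h5 hM)
  refine grad_of' hx0 (lt_of_le_of_lt ?_ hs) h6
  apply mul_le_mul_of_nonneg_left _ hM
  apply mul_le_mul_of_nonneg_left _ (by positivity)
  apply mul_le_mul_of_nonneg_left _ hlρa.le
  apply Real.rpow_le_rpow (by positivity) _ hb.le
  rw [div_le_div_iff₀ hr₁ hom]
  linarith

/-- up_le -/
theorem Pth.up_le (P : Pth rh v₀ Kp U g z₀ z a b l om M ρ T C₁ CH) :
    ‖g (z₀ + T • v₀) - g z₀‖ ≤ M * (1 + C₁) ^ (a + b) * ((rh z₀ + T) / ρ) ^ a / a := by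
  have Q := P.bas
  have Pk := fun {x : ℂ × ℂ} (hxU : x ∈ U) {r₁ : ℝ} (hr₁ : 0 < r₁) => P.key hxU hr₁
  obtain ⟨h0, hl0, hCH, hC1H, hN9, hr0, hT0, hrl, homb, hlρa, nsv, hconst, hXb⟩ := Q
  obtain ⟨dp, ha, hb, hM, hρ0, hρl, hC₁, hρr, hl, hom, hom1, hz, hd, hT1, hT2, hU0, hUz, hUx, hdf,
    hG, hs⟩ := P
  have hK1 := dp.K1
  set r₀ := rh z₀ with hr₀
  set N : ℝ := 3 * C₁ * (1 + CH) with hN
  set r := rh z with hr
  have hN0 : 0 < N := by linarith
  have hCH2 : 2 ≤ CH := by linarith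
  set B : ℝ → ℝ := fun s => M * (1 + C₁) ^ (a + b) * ((r₀ + s) / ρ) ^ a / a with hB
  set B' : ℝ → ℝ := fun s => M * (1 + C₁) ^ (a + b) * (((r₀ + s) / ρ) ^ a / (r₀ + s)) with hB'
  have hder : ∀ s ∈ Icc (0 : ℝ) T, HasDerivAt B (B' s) s := by
    intro s hs'
    have hs0 : 0 < r₀ + s := by linarith [hs'.1]
    have h1 : HasDerivAt (fun s : ℝ => (r₀ + s) / ρ) (1 / ρ) s :=
      ((hasDerivAt_id s).const_add r₀).div_const ρ
    have h2 := h1.rpow_const (p := a) (Or.inl (by positivity : (r₀ + s) / ρ ≠ 0))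
    have h3 := (h2.const_mul (M * (1 + C₁) ^ (a + b))).div_const a
    refine h3.congr_deriv ?_
    rw [hB']
    simp only
    rw [Real.rpow_sub_one (by positivity : (r₀ + s) / ρ ≠ 0)]
    field_simp
  have hdist : ∀ s ∈ Icc (0 : ℝ) T, ‖z₀ + s • v₀ - z₀‖ ≤ s := by
    intro s hs'
    rw [add_sub_cancel_left]
    exact nsv s hs'.1
  have hmain := image_norm_le_of_norm_deriv_right_le_deriv_boundary'
    (f := fun s : ℝ => g (z₀ + s • v₀) - g z₀) (a := 0) (b := T)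
    (f' := fun s => fderiv ℂ g (z₀ + s • v₀) v₀) (B := B) (B' := B') ?_ ?_ ?_ ?_ ?_ ?_
  · exact hmain (right_mem_Icc.2 hT0.le)
  · intro s hs'
    have hx := hdf _ (hU0 s hs')
    exact ((deriv_line hx).sub_const _).continuousAt.continuousWithinAt
  · intro s hs'
    have hx := hdf _ (hU0 s (Ico_subset_Icc_self hs'))
    exact ((deriv_line hx).sub_const _).hasDerivWithinAt
  · simp only [zero_smul, add_zero, sub_self, norm_zero]
    rw [hB]
    positivity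
  · intro s hs'
    exact (hder s hs').continuousAt.continuousWithinAt
  · intro s hs'
    exact (hder s (Ico_subset_Icc_self hs')).hasDerivWithinAt
  · intro s hs'
    have hI := Ico_subset_Icc_self hs'
    have hs0 : 0 < r₀ + s := by linarith [hs'.1]
    have hrh : rh (z₀ + s • v₀) = r₀ + s := dp.up _ _ hs'.1
    have hpos : 0 < rh (z₀ + s • v₀) := by rw [hrh]; exact hs0
    have hD : ‖z₀ + s • v₀ - z₀‖ + ρ + rh (z₀ + s • v₀) ≤ (1 + C₁) * (r₀ + s) := by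
      rw [hrh]
      have := hdist s hI
      nlinarith [hs'.1]
    have e0 := hG _ (hU0 s hI)
    have e1 := e0.trans (mul_le_mul_of_nonneg_left
      (pen_mono (ρ := ρ) ha hb hρ0 (by have := norm_nonneg (z₀ + s • v₀ - z₀); linarith) hD hpos le_rfl) hM)
    rw [hrh] at e1
    have e2 : (1 + C₁) * (r₀ + s) / (r₀ + s) = 1 + C₁ := by field_simp
    rw [e2] at e1
    have e3 : ((1 + C₁) * (r₀ + s) / ρ) ^ a * (1 + C₁) ^ b =
        (1 + C₁) ^ (a + b) * ((r₀ + s) / ρ) ^ a := by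
      rw [mul_div_assoc, Real.mul_rpow (by linarith) (by positivity),
        Real.rpow_add (by linarith)]
      ring
    rw [e3] at e1
    have e6 : M * ((1 + C₁) ^ (a + b) * ((r₀ + s) / ρ) ^ a) < 1 := by
      refine lt_of_le_of_lt ?_ hs
      exact mul_le_mul_of_nonneg_left (hconst _ (by positivity) (hXb s hI.2)) hM
    have e7 := grad_of' hs0 e6 e1
    calc ‖fderiv ℂ g (z₀ + s • v₀) v₀‖ ≤ ‖fderiv ℂ g (z₀ + s • v₀)‖ * ‖v₀‖ :=
          ContinuousLinearMap.le_opNorm _ _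
      _ ≤ (M * ((1 + C₁) ^ (a + b) * ((r₀ + s) / ρ) ^ a) / (r₀ + s)) * 1 :=
          mul_le_mul e7 dp.v1 (norm_nonneg _) (by positivity)
      _ = B' s := by rw [hB']; ring

/-- over_le -/
theorem Pth.over_le (P : Pth rh v₀ Kp U g z₀ z a b l om M ρ T C₁ CH) :
    ‖g (z + T • v₀) - g (z₀ + T • v₀)‖ ≤
      M * ((3 * C₁ * (1 + CH)) ^ (a + b) * ((l / ρ) ^ a * (1 / om) ^ b)) := by
  have Q := P.bas
  have Pk := fun {x : ℂ × ℂ} (hxU : x ∈ U) {r₁ : ℝ} (hr₁ : 0 < r₁) => P.key hxU hr₁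
  obtain ⟨h0, hl0, hCH, hC1H, hN9, hr0, hT0, hrl, homb, hlρa, nsv, hconst, hXb⟩ := Q
  obtain ⟨dp, ha, hb, hM, hρ0, hρl, hC₁, hρr, hl, hom, hom1, hz, hd, hT1, hT2, hU0, hUz, hUx, hdf,
    hG, hs⟩ := P
  have hK1 := dp.K1
  set r₀ := rh z₀ with hr₀
  set N : ℝ := 3 * C₁ * (1 + CH) with hN
  set r := rh z with hr
  have hN0 : 0 < N := by linarith
  have hCH2 : 2 ≤ CH := by linarith
  set v := z - z₀ with hv
  set Bc : ℝ := M * (N ^ (a + b) * ((l / ρ) ^ a * (1 / om) ^ b)) with hBc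
  have hsv : ∀ s ∈ Icc (0 : ℝ) 1, ‖s • v‖ ≤ l := by
    intro s hs'
    rw [norm_smul, Real.norm_of_nonneg hs'.1]
    nlinarith [hs'.2, norm_nonneg v, hs'.1]
  have hrhx : ∀ s ∈ Icc (0 : ℝ) 1, l ≤ rh (z₀ + T • v₀ + s • v) := by
    intro s hs'
    have h1 := dp.lip (z₀ + T • v₀) (z₀ + T • v₀ + s • v)
    rw [dp.up _ _ hT0.le] at h1
    have h2 : z₀ + T • v₀ - (z₀ + T • v₀ + s • v) = -(s • v) := by abel
    rw [h2, norm_neg] at h1
    have h3 := mul_le_mul_of_nonneg_left (hsv s hs') (by linarith : (0 : ℝ) ≤ Kp)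
    have h4 : (1 + Kp) * l = l + Kp * l := by ring
    linarith
  have hrhu : ∀ s ∈ Icc (0 : ℝ) 1, rh (z₀ + T • v₀ + s • v) ≤ 2 * CH * l := by
    intro s hs'
    have h1 := dp.lip (z₀ + T • v₀ + s • v) (z₀ + T • v₀)
    rw [dp.up _ _ hT0.le] at h1
    have h2 : z₀ + T • v₀ + s • v - (z₀ + T • v₀) = s • v := by abel
    rw [h2] at h1
    have h3 := mul_le_mul_of_nonneg_left (hsv s hs') (by linarith : (0 : ℝ) ≤ Kp)
    have h4 : (1 + Kp) * l ≤ CH * l := mul_le_mul_of_nonneg_right hCH hl0.le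
    linarith
  have hdx : ∀ s ∈ Icc (0 : ℝ) 1, ‖z₀ + T • v₀ + s • v - z₀‖ ≤ (1 + CH) * l := by
    intro s hs'
    have : z₀ + T • v₀ + s • v - z₀ = T • v₀ + s • v := by abel
    rw [this]
    refine (norm_add_le _ _).trans ?_
    have h3 := nsv T hT0.le
    have h4 := hsv s hs'
    linarith
  have hmain := image_norm_le_of_norm_deriv_right_le_deriv_boundary'
    (f := fun s : ℝ => g (z₀ + T • v₀ + s • v) - g (z₀ + T • v₀)) (a := 0) (b := 1)
    (f' := fun s => fderiv ℂ g (z₀ + T • v₀ + s • v) v) (B := fun s => Bc * s)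
    (B' := fun _ => Bc) ?_ ?_ ?_ ?_ ?_ ?_
  · have h7 := hmain (right_mem_Icc.2 zero_le_one)
    have h8 : z₀ + T • v₀ + v = z + T • v₀ := by
      rw [hv]; abel
    simpa [h8] using h7
  · intro s hs'
    have hx := hdf _ (hUx s hs')
    exact ((deriv_line hx).sub_const _).continuousAt.continuousWithinAt
  · intro s hs'
    have hx := hdf _ (hUx s (Ico_subset_Icc_self hs'))
    exact ((deriv_line hx).sub_const _).hasDerivWithinAt
  · simp
  · fun_prop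
  · intro s _
    have := ((hasDerivAt_id s).const_mul Bc).hasDerivWithinAt (s := Ici s)
    simpa using this
  · intro s hs'
    have hI := Ico_subset_Icc_self hs'
    have h9 := hrhx s hI
    have h10 := Pk (hUx s hI) hl0 h9 (hdx s hI) (hrhu s hI) (by nlinarith)
    rw [div_self hl0.ne', Real.one_rpow, mul_one] at h10
    have h11 : 0 < rh (z₀ + T • v₀ + s • v) := hl0.trans_le h9
    calc ‖fderiv ℂ g (z₀ + T • v₀ + s • v) v‖ ≤ ‖fderiv ℂ g (z₀ + T • v₀ + s • v)‖ * ‖v‖ :=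
          ContinuousLinearMap.le_opNorm _ _
      _ ≤ (M * (N ^ (a + b) * (l / ρ) ^ a) / rh (z₀ + T • v₀ + s • v)) * l :=
          mul_le_mul h10 hd (norm_nonneg _) (by positivity)
      _ ≤ M * (N ^ (a + b) * (l / ρ) ^ a) := by
          rw [div_mul_eq_mul_div, div_le_iff₀ h11]
          exact mul_le_mul_of_nonneg_left h9 (by positivity)
      _ ≤ Bc := by
          rw [hBc]
          apply mul_le_mul_of_nonneg_left _ hM
          apply mul_le_mul_of_nonneg_left _ (by positivity)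
          nlinarith

/-- down_le -/
theorem Pth.down_le (P : Pth rh v₀ Kp U g z₀ z a b l om M ρ T C₁ CH) :
    ‖g (z + T • v₀) - g z‖ ≤
      M * ((3 * C₁ * (1 + CH)) ^ (a + b) * ((l / ρ) ^ a * (1 / om) ^ b)) / b := by
  have Q := P.bas
  have Pk := fun {x : ℂ × ℂ} (hxU : x ∈ U) {r₁ : ℝ} (hr₁ : 0 < r₁) => P.key hxU hr₁
  obtain ⟨h0, hl0, hCH, hC1H, hN9, hr0, hT0, hrl, homb, hlρa, nsv, hconst, hXb⟩ := Q
  obtain ⟨dp, ha, hb, hM, hρ0, hρl, hC₁, hρr, hl, hom, hom1, hz, hd, hT1, hT2, hU0, hUz, hUx, hdf,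
    hG, hs⟩ := P
  have hK1 := dp.K1
  set r₀ := rh z₀ with hr₀
  set N : ℝ := 3 * C₁ * (1 + CH) with hN
  set r := rh z with hr
  have hN0 : 0 < N := by linarith
  have hCH2 : 2 ≤ CH := by linarith
  set Q : ℝ := M * (N ^ (a + b) * ((l / ρ) ^ a * l ^ b)) with hQ
  set B : ℝ → ℝ := fun s => Q / b * (r ^ (-b) - (r + s) ^ (-b)) with hB
  set B' : ℝ → ℝ := fun s => Q * ((r + s) ^ (-b) / (r + s)) with hB'
  have hder : ∀ s ∈ Icc (0 : ℝ) T, HasDerivAt B (B' s) s := by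
    intro s hs'
    have hs0 : 0 < r + s := by linarith [hs'.1]
    have h1 : HasDerivAt (fun s : ℝ => r + s) 1 s := (hasDerivAt_id s).const_add r
    have h2 := h1.rpow_const (p := -b) (Or.inl hs0.ne')
    have h3 := (h2.const_sub (r ^ (-b))).const_mul (Q / b)
    refine h3.congr_deriv ?_
    rw [hB']
    simp only
    rw [Real.rpow_sub_one hs0.ne']
    field_simp
  have hrK : r ≤ (1 + Kp) * l := by
    have h1 := dp.lip z z₀
    have h2 := mul_le_mul_of_nonneg_left hd (by linarith : (0 : ℝ) ≤ Kp)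
    linarith
  have hrhx : ∀ s ∈ Icc (0 : ℝ) T, rh (z + s • v₀) = r + s := fun s hs' => dp.up z s hs'.1
  have hrhu : ∀ s ∈ Icc (0 : ℝ) T, rh (z + s • v₀) ≤ 2 * CH * l := by
    intro s hs'
    rw [hrhx s hs']
    have h2 := hs'.2
    have h4 : (1 + Kp) * l ≤ CH * l := mul_le_mul_of_nonneg_right hCH hl0.le
    linarith
  have hdx : ∀ s ∈ Icc (0 : ℝ) T, ‖z + s • v₀ - z₀‖ ≤ (1 + CH) * l := by
    intro s hs'
    have : z + s • v₀ - z₀ = s • v₀ + (z - z₀) := by abel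
    rw [this]
    refine (norm_add_le _ _).trans ?_
    have h1 := nsv s hs'.1
    have h2 := hs'.2
    linarith
  have hmain := image_norm_le_of_norm_deriv_right_le_deriv_boundary'
    (f := fun s : ℝ => g (z + s • v₀) - g z) (a := 0) (b := T)
    (f' := fun s => fderiv ℂ g (z + s • v₀) v₀) (B := B) (B' := B') ?_ ?_ ?_ ?_ ?_ ?_
  · have h7 := hmain (right_mem_Icc.2 hT0.le)
    refine h7.trans ?_
    rw [hB]
    simp only
    have h8 : 0 ≤ (r + T) ^ (-b) := by positivity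
    calc Q / b * (r ^ (-b) - (r + T) ^ (-b)) ≤ Q / b * r ^ (-b) := by
          apply mul_le_mul_of_nonneg_left _ (by positivity)
          linarith
      _ = M * (N ^ (a + b) * ((l / ρ) ^ a * (l / r) ^ b)) / b := by
          rw [hQ, Real.div_rpow hl0.le hr0.le, Real.rpow_neg hr0.le]
          field_simp
      _ ≤ _ := by
          apply div_le_div_of_nonneg_right _ hb.le
          apply mul_le_mul_of_nonneg_left _ hM
          apply mul_le_mul_of_nonneg_left _ (by positivity)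
          apply mul_le_mul_of_nonneg_left _ hlρa.le
          exact Real.rpow_le_rpow (by positivity) hrl hb.le
  · intro s hs'
    have hx := hdf _ (hUz s hs')
    exact ((deriv_line hx).sub_const _).continuousAt.continuousWithinAt
  · intro s hs'
    have hx := hdf _ (hUz s (Ico_subset_Icc_self hs'))
    exact ((deriv_line hx).sub_const _).hasDerivWithinAt
  · simp only [zero_smul, add_zero, sub_self, norm_zero]
    rw [hB]
    simp
  · intro s hs'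
    exact (hder s hs').continuousAt.continuousWithinAt
  · intro s hs'
    exact (hder s (Ico_subset_Icc_self hs')).hasDerivWithinAt
  · intro s hs'
    have hs0 : 0 < r + s := by linarith [hs'.1]
    have hI := Ico_subset_Icc_self hs'
    have h10 := Pk (hUz s hI) hs0 (hrhx s hI).ge (hdx s hI) (hrhu s hI)
      (by linarith [hs'.1])
    rw [hrhx s hI] at h10
    calc ‖fderiv ℂ g (z + s • v₀) v₀‖ ≤ ‖fderiv ℂ g (z + s • v₀)‖ * ‖v₀‖ :=
          ContinuousLinearMap.le_opNorm _ _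
      _ ≤ (M * (N ^ (a + b) * ((l / ρ) ^ a * (l / (r + s)) ^ b)) / (r + s)) * 1 :=
          mul_le_mul h10 dp.v1 (norm_nonneg _) (by positivity)
      _ = B' s := by
          rw [hB', hQ]
          simp only
          rw [Real.div_rpow hl0.le hs0.le, Real.rpow_neg hs0.le]
          field_simp

/-- **TN1 (path row), any depth function, on a set `U` containing the three segments** -/
theorem Pth.path (P : Pth rh v₀ Kp U g z₀ z a b l om M ρ T C₁ CH) :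
    ‖g z - g z₀‖ ≤ M * ((3 * C₁ * (1 + CH)) ^ (a + b) * (1 / a + 1 + 1 / b) *
      ((l / ρ) ^ a * (1 / om) ^ b)) := by
  have hup := P.up_le
  have hov := P.over_le
  have hdn := P.down_le
  have Q := P.bas
  have Pk := fun {x : ℂ × ℂ} (hxU : x ∈ U) {r₁ : ℝ} (hr₁ : 0 < r₁) => P.key hxU hr₁
  obtain ⟨h0, hl0, hCH, hC1H, hN9, hr0, hT0, hrl, homb, hlρa, nsv, hconst, hXb⟩ := Q
  obtain ⟨dp, ha, hb, hM, hρ0, hρl, hC₁, hρr, hl, hom, hom1, hz, hd, hT1, hT2, hU0, hUz, hUx, hdf,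
    hG, hs⟩ := P
  have hK1 := dp.K1
  set r₀ := rh z₀ with hr₀
  set N : ℝ := 3 * C₁ * (1 + CH) with hN
  set r := rh z with hr
  have hN0 : 0 < N := by linarith
  have hCH2 : 2 ≤ CH := by linarith
  -- sum
  have htri : ‖g z - g z₀‖ ≤ ‖g (z + T • v₀) - g z‖ + ‖g (z + T • v₀) - g (z₀ + T • v₀)‖ +
      ‖g (z₀ + T • v₀) - g z₀‖ := by
    have : g z - g z₀ = -(g (z + T • v₀) - g z) + (g (z + T • v₀) - g (z₀ + T • v₀)) +
        (g (z₀ + T • v₀) - g z₀) := by abel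
    rw [this]
    refine (norm_add_le _ _).trans (add_le_add_left ((norm_add_le _ _).trans ?_) _)
    rw [norm_neg]
  have hup' : M * (1 + C₁) ^ (a + b) * ((r₀ + T) / ρ) ^ a / a ≤
      M * (N ^ (a + b) * ((l / ρ) ^ a * (1 / om) ^ b)) / a := by
    apply div_le_div_of_nonneg_right _ ha.le
    rw [mul_assoc]
    exact mul_le_mul_of_nonneg_left (hconst _ (by positivity) (hXb T le_rfl)) hM
  calc ‖g z - g z₀‖ ≤ _ := htri
    _ ≤ M * (N ^ (a + b) * ((l / ρ) ^ a * (1 / om) ^ b)) / b +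
        M * (N ^ (a + b) * ((l / ρ) ^ a * (1 / om) ^ b)) +
        M * (N ^ (a + b) * ((l / ρ) ^ a * (1 / om) ^ b)) / a :=
      add_le_add (add_le_add hdn hov) (hup.trans hup')
    _ = _ := by ring

end Vale.Agent.P097.H740.TN
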