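import Vale.Agent.P097.H740.TN3
import Vale.Agent.P097.H17.CG

/-! # P097 / row T-DISC, near zone: from (G) on real-label windows to the difference of the lines at
the points of the two-sided cones (local form) -/

open Complex Metric Filter Topology Set

namespace Vale.Agent.P097.H740.TN

open Vale.Agent.P097.H17.CG

variable {F : Type*} [NormedAddCommGroup F] [NormedSpace ℂ F]

/-- picks, local form: the lines are differentiable on the balls of the windows only -/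
structure WL (dep : ℂ × ℂ → ℝ) (L : ℂ × ℂ → F) (E : ℂ × ℂ → ℝ) (Z : Set (ℂ × ℂ))
    (L1 κ C e ρ : ℝ) (zs : ℂ × ℂ) : Prop where
  lip : ∀ z z', |dep z - dep z'| ≤ L1 * ‖z - z'‖
  dL : ∀ z ∈ Z, DifferentiableOn ℂ L (closedBall z (κ * dep z))
  E0 : ∀ z ∈ Z, 0 ≤ E z
  E1 : ∀ z ∈ Z, ∀ x ∈ closedBall z (κ * dep z), ∀ y ∈ closedBall z (κ * dep z),
    min 1 ‖L x - L y‖ ≤ E z
  G : ∀ z ∈ Z, E z ≤ C * e * ((‖zs - z‖ + ρ + dep z) / ρ) ^ (1 / 2 : ℝ) *
    ((‖zs - z‖ + ρ + dep z) / dep z) ^ 2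

section

variable {dep : ℂ × ℂ → ℝ} {L : ℂ × ℂ → F} {E : ℂ × ℂ → ℝ} {Z : Set (ℂ × ℂ)}
    {L1 κ C e ρ : ℝ} {zs : ℂ × ℂ} {K' : ℝ}

/-- the dummy global form -/
theorem WL.wg (W : WL dep L E Z L1 κ C e ρ zs) :
    WG dep (fun _ : ℂ × ℂ => (0 : ℂ)) E Z L1 κ C e ρ zs where
  lip := W.lip
  dL := fun _ _ => differentiableOn_const _
  E1 z hz x _ y _ := by
    simp only [sub_self, norm_zero]
    exact (min_le_right _ _).trans (W.E0 z hz)
  G := W.G

theorem WL.diffAt (W : WL dep L E Z L1 κ C e ρ zs) (hκ : 0 < κ) (hL1 : 2 * L1 ≤ K')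
    (hKκ : 4 / κ ≤ K') {z : ℂ × ℂ} (hd : 0 < dep z)
    (hz : K' * |z.2.im| ≤ dep z) (hZ : rlw z ∈ Z) : DifferentiableAt ℂ L z := by
  obtain ⟨h2, h3⟩ := dep_rlw W.lip hL1 hz
  have h4 : |z.2.im| ≤ κ / 4 * dep z := by
    have h5 : 4 / κ * |z.2.im| ≤ dep z :=
      (mul_le_mul_of_nonneg_right hKκ (abs_nonneg _)).trans hz
    have h6 : |z.2.im| = κ / 4 * (4 / κ * |z.2.im|) := by field_simp
    rw [h6]
    gcongr
  refine (W.dL _ hZ).differentiableAt ?_
  apply mem_of_superset (ball_mem_nhds z (show 0 < κ / 8 * dep z by positivity))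
  intro x hx
  rw [mem_ball, dist_eq_norm] at hx
  rw [mem_closedBall, dist_eq_norm]
  calc ‖x - rlw z‖ = ‖(x - z) + (z - rlw z)‖ := by congr 1; abel
    _ ≤ ‖x - z‖ + ‖z - rlw z‖ := norm_add_le _ _
    _ ≤ κ / 8 * dep z + κ / 4 * dep z := by
        rw [norm_sub_rlw]; exact add_le_add hx.le h4
    _ ≤ κ * (dep z / 2) := by nlinarith
    _ ≤ _ := by gcongr

/-- **(C1), local form** -/
theorem WL.grad (W : WL dep L E Z L1 κ C e ρ zs) (hκ : 0 < κ) (hC : 0 ≤ C) (he : 0 ≤ e)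
    (hρ : 0 < ρ) (hK1 : 1 ≤ K') (hL1 : 2 * L1 ≤ K') (hKκ : 4 / κ ≤ K') {z : ℂ × ℂ}
    (hd : 0 < dep z) (hz : K' * |z.2.im| ≤ dep z) (hZ : rlw z ∈ Z) :
    min 1 (dep z * ‖fderiv ℂ L z‖) ≤ 128 * max 1 (4 / κ) *
      (C * e * ((‖zs - z‖ + ρ + dep z) / ρ) ^ (1 / 2 : ℝ) *
      ((‖zs - z‖ + ρ + dep z) / dep z) ^ 2) := by
  have hE := W.wg.E_le hκ hC he hρ hK1 hL1 hd hz hZ
  have hm : 0 < max 1 (4 / κ) := by positivity
  suffices h : min 1 (dep z * ‖fderiv ℂ L z‖) ≤ max 1 (4 / κ) * E (rlw z) by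
    refine h.trans ((mul_le_mul_of_nonneg_left hE hm.le).trans_eq ?_)
    ring
  have hsub := W.wg.ball_sub hκ hK1 hL1 hKκ hd hz
  rcases le_or_gt 1 (E (rlw z)) with h1 | h1
  · calc min 1 (dep z * ‖fderiv ℂ L z‖) ≤ 1 := min_le_left _ _
      _ ≤ 1 * 1 := by norm_num
      _ ≤ max 1 (4 / κ) * E (rlw z) := by
          gcongr
          exact le_max_left _ _
  · have hR : 0 < κ / 4 * dep z := by positivity
    have hzz : z ∈ closedBall z (κ / 4 * dep z) := mem_closedBall_self hR.le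
    have hb : ∀ x ∈ closedBall z (κ / 4 * dep z), ‖L x - L z‖ ≤ E (rlw z) := by
      intro x hx
      have h2 := W.E1 _ hZ x (hsub hx) z (hsub hzz)
      rcases min_le_iff.1 h2 with h3 | h3
      · exact absurd h3 (not_le.2 h1)
      · exact h3
    have h4 := fderiv_le hR (W.E0 _ hZ) ((W.dL _ hZ).mono hsub)
      (W.diffAt hκ hL1 hKκ hd hz hZ) hb
    calc min 1 (dep z * ‖fderiv ℂ L z‖) ≤ dep z * ‖fderiv ℂ L z‖ := min_le_right _ _
      _ ≤ dep z * (E (rlw z) / (κ / 4 * dep z)) := by gcongr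
      _ = 4 / κ * E (rlw z) := by field_simp
      _ ≤ max 1 (4 / κ) * E (rlw z) := by
          gcongr
          · exact W.E0 _ hZ
          · exact le_max_right _ _

/-- the constant of the near zone -/
noncomputable def Kn (K' L1 κ C : ℝ) : ℝ :=
  128 * max 1 (4 / κ) * C * ((3 * 1 * (1 + (3 * K' + L1 + 1))) ^ ((1 / 2 : ℝ) + 2) *
    (1 / (1 / 2 : ℝ) + 1 + 1 / 2))

/-- **TD-NEAR** : the difference of the lines at a point of the two-sided cones -/
theorem WL.near (W : WL dep L E Z L1 κ C e ρ zs) {K2 : ℝ} {A : Set ℝ} {z : ℂ × ℂ} {l om : ℝ}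
    (hκ : 0 < κ) (hC : 0 ≤ C) (he : 0 ≤ e) (hρ : 0 < ρ) (hK1 : 1 ≤ K') (h1L : 1 ≤ L1)
    (hL1 : 2 * L1 ≤ K') (hKκ : 4 / κ ≤ K') (hK2 : 2 * K2 ≤ K')
    (hup : ∀ (x : ℂ × ℂ) (s : ℝ), 0 ≤ s → dep (x + s • ((-I, 0) : ℂ × ℂ)) = dep x + s)
    (hzs : zs.2.im = 0) (hzr : dep zs = ρ) (hzA : K' * infDist zs.2.re A ≤ ρ)
    (hZ : ∀ x : ℂ × ℂ, x.2.im = 0 → 0 < dep x → K2 * infDist x.2.re A ≤ dep x →
      ‖x - zs‖ ≤ (3 * K' + L1 + 3) * l → x ∈ Z)
    (hρl : ρ ≤ l) (hom : 0 < om) (hom1 : om ≤ 1) (hzo : om * l ≤ dep z) (hd : ‖z - zs‖ ≤ l)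
    (hz : K' * (|z.2.im| + infDist z.2.re A) ≤ dep z)
    (hs : Kn K' L1 κ C * (e * ((l / ρ) ^ (1 / 2 : ℝ) * (1 / om) ^ 2)) < 1) :
    ‖L z - L zs‖ ≤ Kn K' L1 κ C * (e * ((l / ρ) ^ (1 / 2 : ℝ) * (1 / om) ^ 2)) := by
  have hl0 : 0 < l := hρ.trans_le hρl
  have hdz : 0 < dep z := (mul_pos hom hl0).trans_le hzo
  set CH : ℝ := 3 * K' + L1 + 1 with hCH
  have hK0 : 0 ≤ K' := by linarith
  set U : Set (ℂ × ℂ) := {x | 0 < dep x ∧ K' * |x.2.im| ≤ dep x ∧ rlw x ∈ Z} with hU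
  have hv2 : ∀ (x : ℂ × ℂ) (s : ℝ), (x + s • ((-I, 0) : ℂ × ℂ)).2 = x.2 := by
    intro x s; simp
  have hzim : |z.2.im| ≤ l := by
    have h1 : |z.2.im - zs.2.im| ≤ ‖z - zs‖ := by
      rw [← Complex.sub_im]
      exact (Complex.abs_im_le_norm _).trans (norm_snd_le (z - zs))
    rw [hzs, sub_zero] at h1
    exact h1.trans hd
  have hnv : ∀ s : ℝ, 0 ≤ s → ‖s • ((-I, 0) : ℂ × ℂ)‖ ≤ s := by
    intro s hs'
    rw [norm_smul, Real.norm_of_nonneg hs', Prod.norm_def]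
    simp
  -- a point of the cone near zs is in U
  have hmem : ∀ x : ℂ × ℂ, 0 < dep x → K' * (|x.2.im| + infDist x.2.re A) ≤ dep x →
      |x.2.im| ≤ l → ‖x - zs‖ ≤ (CH + 1) * l → x ∈ U := by
    intro x hx0 hx hxi hxd
    have hi0 : 0 ≤ infDist x.2.re A := infDist_nonneg
    have h1 : K' * |x.2.im| ≤ dep x := by nlinarith
    obtain ⟨m1, m2, m3⟩ := mem_Z W.lip hK0 hL1 hK2 hx
    refine ⟨hx0, h1, hZ _ ?_ (by linarith) m1 ?_⟩
    · simp [rlw]
    · have h2 : rlw x - zs = -(x - rlw x) + (x - zs) := by abel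
      rw [h2]
      refine (norm_add_le _ _).trans ?_
      rw [norm_neg, norm_sub_rlw]
      have h3 : (3 * K' + L1 + 3) * l = l + (CH + 1) * l := by rw [hCH]; ring
      linarith
  have hdp : Dep dep ((-I, 0) : ℂ × ℂ) L1 :=
    ⟨h1L, by rw [Prod.norm_def]; simp, hup, fun x y => by
      have := (abs_le.1 (W.lip x y)).2
      linarith⟩
  have P : Pth dep ((-I, 0) : ℂ × ℂ) L1 U L zs z (1 / 2) 2 l om
      (128 * max 1 (4 / κ) * (C * e)) ρ (CH * l) 1 CH := by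
    refine ⟨hdp, by norm_num, by norm_num, by positivity, hρ, hρl, le_rfl, by rw [hzr]; linarith,
      by rw [hzr]; exact hρl, hom, hom1, hzo, hd, ?_, le_rfl, ?_, ?_, ?_, ?_, ?_, ?_⟩
    · rw [hCH]; nlinarith
    · intro s hs'
      have h1 := hup zs s hs'.1
      have h2 : 0 < dep (zs + s • ((-I, 0) : ℂ × ℂ)) := by rw [h1, hzr]; linarith [hs'.1]
      refine hmem _ h2 ?_ ?_ ?_
      · rw [hv2, h1, hzr, hzs, abs_zero, zero_add]
        linarith [hs'.1]
      · rw [hv2, hzs, abs_zero]; exact hl0.le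
      · rw [add_sub_cancel_left]
        refine (hnv s hs'.1).trans ?_
        have := hs'.2
        linarith
    · intro s hs'
      have h1 := hup z s hs'.1
      have h2 : 0 < dep (z + s • ((-I, 0) : ℂ × ℂ)) := by rw [h1]; linarith [hs'.1]
      refine hmem _ h2 ?_ ?_ ?_
      · rw [hv2, h1]
        linarith [hs'.1]
      · rw [hv2]; exact hzim
      · have h3 : z + s • ((-I, 0) : ℂ × ℂ) - zs = s • ((-I, 0) : ℂ × ℂ) + (z - zs) := by abel
        rw [h3]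
        refine (norm_add_le _ _).trans ?_
        have h4 := hnv s hs'.1
        have h5 := hs'.2
        linarith
    · intro τ hτ
      set x := zs + (CH * l) • ((-I, 0) : ℂ × ℂ) + τ • (z - zs) with hx
      have hT0 : 0 ≤ CH * l := by
        have : 0 ≤ CH := by rw [hCH]; linarith
        positivity
      have h1 := hup zs (CH * l) hT0
      have hτv : ‖τ • (z - zs)‖ ≤ l := by
        rw [norm_smul, Real.norm_of_nonneg hτ.1]
        nlinarith [norm_nonneg (z - zs), hτ.2, hτ.1]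
      have h2 : (3 * K') * l ≤ dep x := by
        have h3 := (abs_le.1 (W.lip x (zs + (CH * l) • ((-I, 0) : ℂ × ℂ)))).1
        have h4 : x - (zs + (CH * l) • ((-I, 0) : ℂ × ℂ)) = τ • (z - zs) := by rw [hx]; abel
        rw [h4, h1, hzr] at h3
        have h5 : L1 * ‖τ • (z - zs)‖ ≤ L1 * l := mul_le_mul_of_nonneg_left hτv (by linarith)
        have h6 : CH * l = 3 * K' * l + L1 * l + l := by rw [hCH]; ring
        linarith
      have hx2 : x.2 = zs.2 + τ • (z.2 - zs.2) := by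
        rw [hx]
        simp
      have hxi : |x.2.im| ≤ l := by
        rw [hx2]
        have h3 : (zs.2 + τ • (z.2 - zs.2)).im = τ * z.2.im := by
          simp [hzs]
        rw [h3, abs_mul, abs_of_nonneg hτ.1]
        nlinarith [abs_nonneg z.2.im, hτ.2, hτ.1]
      have hxr : infDist x.2.re A ≤ 2 * l := by
        have h3 : infDist x.2.re A ≤ infDist zs.2.re A + dist x.2.re zs.2.re := infDist_le_infDist_add_dist
        have h4 : dist x.2.re zs.2.re ≤ l := by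
          rw [hx2, Real.dist_eq]
          have h5 : (zs.2 + τ • (z.2 - zs.2)).re - zs.2.re = τ * (z.2 - zs.2).re := by
            simp
          rw [h5, abs_mul, abs_of_nonneg hτ.1]
          have h6 : |(z.2 - zs.2).re| ≤ l :=
            (Complex.abs_re_le_norm _).trans ((norm_snd_le (z - zs)).trans hd)
          nlinarith [abs_nonneg (z.2 - zs.2).re, hτ.2, hτ.1]
        have h5 : infDist zs.2.re A ≤ l := by
          have h7 : 0 ≤ infDist zs.2.re A := infDist_nonneg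
          nlinarith
        linarith
      have hxd : 0 < dep x := lt_of_lt_of_le (by positivity) h2
      refine hmem _ hxd ?_ hxi ?_
      · refine le_trans ?_ h2
        nlinarith
      · have h3 : x - zs = (CH * l) • ((-I, 0) : ℂ × ℂ) + τ • (z - zs) := by rw [hx]; abel
        rw [h3]
        refine (norm_add_le _ _).trans ?_
        have h4 := hnv (CH * l) hT0
        linarith
    · intro x hx
      exact W.diffAt hκ hL1 hKκ hx.1 hx.2.1 hx.2.2
    · intro x hx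
      have h1 := W.grad hκ hC he hρ hK1 hL1 hKκ hx.1 hx.2.1 hx.2.2
      refine h1.trans_eq ?_
      rw [norm_sub_rev zs x, ← Real.rpow_two]
      ring
    · refine lt_of_le_of_lt (le_of_le_of_eq ?_ (show (128 * max 1 (4 / κ) * C *
        ((3 * 1 * (1 + CH)) ^ ((1 / 2 : ℝ) + 2) * (1 / (1 / 2 : ℝ) + 1 + 1 / 2))) *
        (e * ((l / ρ) ^ (1 / 2 : ℝ) * (1 / om) ^ (2 : ℝ))) = _ from rfl)) ?_
      · have h1 : 0 ≤ 128 * max 1 (4 / κ) * (C * e) *
            ((3 * 1 * (1 + CH)) ^ ((1 / 2 : ℝ) + 2) * ((l / ρ) ^ (1 / 2 : ℝ) * (1 / om) ^ (2 : ℝ))) := by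
          have : 0 ≤ CH := by rw [hCH]; linarith
          positivity
        have h2 : (1 : ℝ) ≤ 1 / (1 / 2 : ℝ) + 1 + 1 / 2 := by norm_num
        have h3 := mul_le_mul_of_nonneg_left h2 h1
        refine (le_of_eq (mul_one _).symm).trans (h3.trans_eq ?_)
        ring
      · rw [Real.rpow_two]
        exact hs
  have h := P.path
  refine h.trans_eq ?_
  rw [Real.rpow_two]
  unfold Kn
  rw [← hCH]
  ring

end

end Vale.Agent.P097.H740.TN
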