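import Mathlib

/-!
P097, case [c], row ZD (helper740): division by a family with non zero limit, locally uniformly,
in any number of variables (across the R2 curves).
-/

namespace Vale.Agent.P097.H740

open Filter Metric Set Topology

variable {ι : Type*} {E : Type*} [NormedAddCommGroup E] [NormedSpace ℂ E]

/-- eventually holomorphic near every point of `U` -/
def HolLoc (l : Filter ι) (f : ι → E → ℂ) (U : Set E) : Prop :=
  ∀ x ∈ U, ∃ r > 0, ∀ᶠ j in l, DifferentiableOn ℂ (f j) (ball x r)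

/-- Identity theorem. -/
theorem eqOn_zero {V : Set E} (hV : IsOpen V) (hVc : IsPreconnected V) {h : E → ℂ}
    (hd : DifferentiableOn ℂ h V) {a : E} (ha : a ∈ V) (h0 : h =ᶠ[𝓝 a] 0) : ∀ x ∈ V, h x = 0 := by
  set A : Set E := {x | h =ᶠ[𝓝 x] 0} with hA
  have hAo : IsOpen A := isOpen_iff_mem_nhds.2 fun x hx => eventually_eventually_nhds.2 hx
  have hsub : V ⊆ A := by
    refine hVc.subset_of_closure_inter_subset hAo ⟨a, ha, h0⟩ ?_
    rintro x ⟨hx1, hx2⟩
    obtain ⟨r, hr, hrV⟩ := Metric.isOpen_iff.1 hV x hx2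
    obtain ⟨b, hbA, hb⟩ := Metric.mem_closure_iff.1 hx1 (r / 2) (by positivity)
    have hbV : ball b (r / 2) ⊆ V := by
      refine Subset.trans ?_ hrV
      intro y hy
      rw [mem_ball] at *
      have := dist_triangle y b x
      rw [dist_comm x b] at hb
      linarith only [this, hy, hb]
    have hz : ∀ y ∈ ball b (r / 2), h y = 0 := by
      intro y hy
      rcases eq_or_ne y b with rfl | hne
      · exact hbA.self_of_nhds
      have hd0 : 0 < ‖y - b‖ := norm_pos_iff.2 (sub_ne_zero.2 hne)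
      have hmaps : ∀ w ∈ ball (0 : ℂ) (r / 2 / ‖y - b‖), b + w • (y - b) ∈ ball b (r / 2) := by
        intro w hw
        rw [mem_ball_zero_iff, lt_div_iff₀ hd0] at hw
        rw [mem_ball, dist_eq_norm, add_sub_cancel_left, norm_smul]
        exact hw
      have hdw : DifferentiableOn ℂ (fun w : ℂ => h (b + w • (y - b)))
          (ball (0 : ℂ) (r / 2 / ‖y - b‖)) := by
        refine (hd.mono hbV).comp ?_ hmaps
        fun_prop
      have h0 : (0 : ℂ) ∈ ball (0 : ℂ) (r / 2 / ‖y - b‖) := mem_ball_self (by positivity)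
      have hev : (fun w : ℂ => h (b + w • (y - b))) =ᶠ[𝓝 0] 0 := by
        have hc : Tendsto (fun w : ℂ => b + w • (y - b)) (𝓝 0) (𝓝 b) := by
          have : Continuous (fun w : ℂ => b + w • (y - b)) := by fun_prop
          have h2 := this.tendsto 0
          simpa using h2
        exact hc.eventually hbA
      have h1 := (hdw.analyticOnNhd isOpen_ball).eqOn_zero_of_preconnected_of_eventuallyEq_zero
        (convex_ball _ _).isPreconnected h0 hev
      have h2 : (1 : ℂ) ∈ ball (0 : ℂ) (r / 2 / ‖y - b‖) := by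
        rw [mem_ball_zero_iff, norm_one, lt_div_iff₀ hd0, one_mul]
        rwa [mem_ball, dist_eq_norm] at hy
      have h3 := h1 h2
      simpa using h3
    exact eventually_of_mem (isOpen_ball.mem_nhds (show x ∈ ball b (r / 2) from hb))
      fun y hy => hz y hy
  intro x hx
  exact (hsub hx).self_of_nhds

/-- near every point there is a direction and a circle on which `G` has no zero -/
theorem exists_circle {U : Set E} (hU : IsOpen U) (hUc : IsPreconnected U) {G : E → ℂ}
    (hG : DifferentiableOn ℂ G U) {z₀ : E} (hz₀ : z₀ ∈ U) (hne : G z₀ ≠ 0) {z : E} (hz : z ∈ U)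
    {r : ℝ} (hr : 0 < r) (hrU : ball z (2 * r) ⊆ U) :
    ∃ v : E, ‖v‖ < r ∧ ∃ ρ : ℝ, 0 < ρ ∧ ρ < 1 ∧ ∀ s ∈ sphere (0 : ℂ) ρ, G (z + s • v) ≠ 0 := by
  have hw : ∃ w ∈ ball z r, G w ≠ 0 := by
    by_contra hcon
    push Not at hcon
    exact hne (eqOn_zero hU hUc hG hz (eventually_of_mem (ball_mem_nhds z hr) hcon) z₀ hz₀)
  obtain ⟨w, hwb, hwG⟩ := hw
  refine ⟨w - z, by rwa [mem_ball, dist_eq_norm] at hwb, ?_⟩
  have hv : ‖w - z‖ < r := by rwa [mem_ball, dist_eq_norm] at hwb
  have hmaps : ∀ s ∈ ball (0 : ℂ) 2, z + s • (w - z) ∈ U := by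
    intro s hs
    refine hrU ?_
    rw [mem_ball, dist_eq_norm, add_sub_cancel_left, norm_smul]
    rw [mem_ball_zero_iff] at hs
    have := norm_nonneg (w - z)
    nlinarith [norm_nonneg s]
  have hd : DifferentiableOn ℂ (fun s : ℂ => G (z + s • (w - z))) (ball 0 2) :=
    hG.comp (by fun_prop) hmaps
  have han := hd.analyticOnNhd isOpen_ball
  have h0 : (0 : ℂ) ∈ ball (0 : ℂ) 2 := mem_ball_self (by norm_num)
  have h1 : (1 : ℂ) ∈ ball (0 : ℂ) 2 := by simp
  have hev : ∀ᶠ s in 𝓝[≠] (0 : ℂ), G (z + s • (w - z)) ≠ 0 := by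
    rcases (han 0 h0).eventually_eq_zero_or_eventually_ne_zero with h | h
    · exfalso
      have := han.eqOn_zero_of_preconnected_of_eventuallyEq_zero
        (convex_ball _ _).isPreconnected h0 h h1
      apply hwG
      simpa using this
    · exact h
  rw [eventually_nhdsWithin_iff, Metric.eventually_nhds_iff] at hev
  obtain ⟨ε, hε, hev⟩ := hev
  refine ⟨min (ε / 2) (1 / 2), by positivity, ?_, ?_⟩
  · exact (min_le_right _ _).trans_lt (by norm_num)
  · intro s hs
    rw [mem_sphere_zero_iff_norm] at hs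
    refine hev ?_ ?_
    · rw [dist_zero_right, hs]
      exact (min_le_left _ _).trans_lt (by linarith)
    · intro h
      rw [mem_singleton_iff] at h
      rw [h, norm_zero] at hs
      have : 0 < min (ε / 2) (1 / 2) := by positivity
      linarith

/-- **Row ZD**. -/
theorem zd [ProperSpace E] {l : Filter ι} {U : Set E} (hU : IsOpen U) (hUc : IsPreconnected U)
    {F G : ι → E → ℂ} {G₀ : E → ℂ} (hF : HolLoc l F U) (hG₀ : DifferentiableOn ℂ G₀ U)
    (hG : TendstoLocallyUniformlyOn G G₀ l U) {z₀ : E} (hz₀ : z₀ ∈ U) (hne : G₀ z₀ ≠ 0)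
    (hFG : TendstoLocallyUniformlyOn (fun i z => F i z * G i z) (fun _ => 0) l U) :
    TendstoLocallyUniformlyOn F (fun _ => 0) l U := by
  rw [Metric.tendstoLocallyUniformlyOn_iff]
  intro ε hε z hz
  obtain ⟨r₀, hr₀, hr₀U⟩ := Metric.isOpen_iff.1 hU z hz
  obtain ⟨r₁, hr₁, hF₁⟩ := hF z hz
  set r := min r₀ r₁ / 2 with hr
  have hrpos : 0 < r := by positivity
  have hrU : ball z (2 * r) ⊆ U := by
    refine (ball_subset_ball ?_).trans hr₀U
    rw [hr]; linarith [min_le_left r₀ r₁]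
  have hr₁' : 2 * r ≤ r₁ := by rw [hr]; linarith [min_le_right r₀ r₁]
  obtain ⟨v, hv, ρ, hρ, hρ1, hc⟩ := exists_circle hU hUc hG₀ hz₀ hne hz hrpos hrU
  set K : Set E := (fun s : ℂ => z + s • v) '' sphere (0 : ℂ) ρ with hK
  have hKc : IsCompact K := (isCompact_sphere _ _).image (by fun_prop)
  have hKU : K ⊆ U := by
    rintro _ ⟨s, hs, rfl⟩
    refine hrU ?_
    rw [mem_sphere_zero_iff_norm] at hs
    rw [mem_ball, dist_eq_norm, add_sub_cancel_left, norm_smul, hs]
    have := norm_nonneg v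
    nlinarith
  have hKne : ∀ x ∈ K, G₀ x ≠ 0 := by
    rintro _ ⟨s, hs, rfl⟩
    exact hc s hs
  have hKnon : K.Nonempty := by
    refine ⟨z + (ρ : ℂ) • v, ρ, ?_, rfl⟩
    simp [abs_of_pos hρ]
  obtain ⟨x₁, hx₁, hmin⟩ := hKc.exists_isMinOn hKnon ((hG₀.continuousOn.mono hKU).norm)
  set c := ‖G₀ x₁‖ / 2 with hcdef
  have hc0 : 0 < c := by
    have := norm_pos_iff.2 (hKne x₁ hx₁)
    positivity
  set O : Set E := U ∩ (fun x => ‖G₀ x‖) ⁻¹' Ioi c with hO
  have hOo : IsOpen O := hG₀.continuousOn.norm.isOpen_inter_preimage hU isOpen_Ioi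
  have hKO : K ⊆ O := by
    intro x hx
    refine ⟨hKU hx, ?_⟩
    have h1 : ‖G₀ x₁‖ ≤ ‖G₀ x‖ := hmin hx
    have h2 : 0 < ‖G₀ x₁‖ := norm_pos_iff.2 (hKne x₁ hx₁)
    simp only [mem_preimage, mem_Ioi, hcdef]
    linarith
  obtain ⟨δ, hδ, hδO⟩ := hKc.exists_cthickening_subset_open hOo hKO
  have hK'c : IsCompact (cthickening δ K) := hKc.cthickening
  have hK'U : cthickening δ K ⊆ U := fun x hx => (hδO hx).1
  have hGu := (tendstoLocallyUniformlyOn_iff_forall_isCompact hU).1 hG _ hK'U hK'c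
  have hFGu := (tendstoLocallyUniformlyOn_iff_forall_isCompact hU).1 hFG _ hK'U hK'c
  rw [Metric.tendstoUniformlyOn_iff] at hGu hFGu
  set δ' := min δ (r / 2) with hδ'
  have hδ'0 : 0 < δ' := by positivity
  refine ⟨ball z δ', mem_nhdsWithin_of_mem_nhds (ball_mem_nhds z hδ'0), ?_⟩
  filter_upwards [hF₁, hGu (c / 2) (by positivity), hFGu (ε / 2 * (c / 2)) (by positivity)]
    with j hj1 hj2 hj3 y hy
  rw [mem_ball, dist_eq_norm] at hy
  have hyδ : ‖y - z‖ ≤ δ := hy.le.trans (min_le_left _ _)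
  have hyr : ‖y - z‖ < r / 2 := hy.trans_le (min_le_right _ _)
  have hmem : ∀ s ∈ sphere (0 : ℂ) ρ, y + s • v ∈ cthickening δ K := by
    intro s hs
    refine mem_cthickening_of_dist_le _ (z + s • v) δ K ⟨s, hs, rfl⟩ ?_
    rw [dist_eq_norm]
    have : y + s • v - (z + s • v) = y - z := by abel
    rw [this]; exact hyδ
  have hmaps : MapsTo (fun s : ℂ => y + s • v) (closedBall (0 : ℂ) ρ) (ball z r₁) := by
    intro s hs
    rw [mem_closedBall_zero_iff] at hs
    refine (ball_subset_ball hr₁') ?_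
    rw [mem_ball, dist_eq_norm]
    have : y + s • v - z = (y - z) + s • v := by abel
    rw [this]
    refine (norm_add_le _ _).trans_lt ?_
    rw [norm_smul]
    have := norm_nonneg v
    nlinarith [norm_nonneg s]
  have hdd : DifferentiableOn ℂ (fun s : ℂ => F j (y + s • v)) (closedBall 0 ρ) :=
    hj1.comp (by fun_prop) hmaps
  have hdc : DiffContOnCl ℂ (fun s : ℂ => F j (y + s • v)) (ball 0 ρ) := by
    refine DifferentiableOn.diffContOnCl ?_
    rw [closure_ball _ hρ.ne']
    exact hdd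
  have hbd : ∀ s ∈ frontier (ball (0 : ℂ) ρ), ‖F j (y + s • v)‖ ≤ ε / 2 := by
    intro s hs
    rw [frontier_ball _ hρ.ne'] at hs
    have hm := hmem s hs
    have h1 := hj2 _ hm
    have h2 := hj3 _ hm
    rw [dist_eq_norm] at h1 h2
    rw [zero_sub, norm_neg, norm_mul] at h2
    have h3 : c < ‖G₀ (y + s • v)‖ := (hδO hm).2
    have h4 : c / 2 ≤ ‖G j (y + s • v)‖ := by
      have := norm_sub_norm_le (G₀ (y + s • v)) (G j (y + s • v))
      linarith
    by_contra hcon
    push Not at hcon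
    have h5 : ε / 2 * (c / 2) ≤ ‖F j (y + s • v)‖ * ‖G j (y + s • v)‖ := by
      gcongr
    linarith
  have hfin := Complex.norm_le_of_forall_mem_frontier_norm_le isBounded_ball hdc hbd
    (z := 0) (subset_closure (mem_ball_self hρ))
  rw [dist_zero_left]
  simp only [zero_smul, add_zero] at hfin
  linarith

end Vale.Agent.P097.H740
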